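import Vale.Agent.Lib.P154Q4.Leaf

/-!
# Covering the chamber by tetrahedra
-/

namespace Vale.Agent.Lib.P154Q4

open Ex

/-- The first child of a bisection: the vertex `e1` is replaced by the middle of the edge. -/
def isChild (T L : Tet) (e0 e1 : Fin 4) : Bool :=
  decide (∀ j i : Fin 4, L.A j i * T.den * 2 =
    (if j = e1 then T.A e0 i + T.A e1 i else 2 * T.A j i) * L.den)

/-- The validity of a bisection. -/
def isBis (T L R : Tet) (e0 e1 : Fin 4) : Bool :=
  decide (e0 ≠ e1) && decide (0 < T.den) && decide (0 < L.den) && decide (0 < R.den) &&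
  isChild T L e0 e1 && isChild T R e1 e0

lemma sum_key (A r : Fin 4 → ℝ) {e0 e1 : Fin 4} (h : e0 ≠ e1) :
    ∑ j, (if j = e1 then A e0 + A e1 else 2 * A j) *
      (if j = e0 then r e0 - r e1 else if j = e1 then 2 * r e1 else r j) = 2 * ∑ j, A j * r j := by
  fin_cases e0 <;> fin_cases e1 <;> simp [Fin.sum_univ_four] at h ⊢ <;> ring

lemma inTet_child {T L : Tet} {e0 e1 : Fin 4} (h0 : e0 ≠ e1) (hT : 0 < T.den) (hL : 0 < L.den)
    (hc : isChild T L e0 e1 = true) {u : Fin 4 → ℝ} {r : Fin 4 → ℝ} (r0 : ∀ j, 0 ≤ r j)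
    (r1 : ∑ j, r j = 1) (r2 : ∀ i, (T.den : ℝ) * u i = ∑ j, (T.A j i : ℝ) * r j) (hle : r e1 ≤ r e0) :
    InTet L u := by
  simp only [isChild, decide_eq_true_eq] at hc
  have hT' : (0 : ℝ) < T.den := by exact_mod_cast hT
  refine ⟨fun j => if j = e0 then r e0 - r e1 else if j = e1 then 2 * r e1 else r j, ?_, ?_, ?_⟩
  · intro j
    dsimp only
    split_ifs
    · linarith
    · linarith [r0 e1]
    · exact r0 j
  · rw [← r1]
    revert h0
    fin_cases e0 <;> fin_cases e1 <;> simp [Fin.sum_univ_four] <;> ring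
  · intro i
    have key := sum_key (fun j => (T.A j i : ℝ)) r h0
    have e1' : ∀ j : Fin 4, (L.A j i : ℝ) * T.den * 2 =
        (if j = e1 then (T.A e0 i : ℝ) + T.A e1 i else 2 * T.A j i) * L.den := by
      intro j
      have := hc j i
      have h2 : ((L.A j i * T.den * 2 : ℤ) : ℝ) =
          (((if j = e1 then T.A e0 i + T.A e1 i else 2 * T.A j i) * L.den : ℤ) : ℝ) := by
        rw [this]
      push_cast at h2
      rw [h2]
    have hpos : (0 : ℝ) < (T.den : ℝ) * 2 := by positivity
    apply mul_left_cancel₀ hpos.ne'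
    calc (T.den : ℝ) * 2 * ((L.den : ℝ) * u i) = 2 * (L.den : ℝ) * ((T.den : ℝ) * u i) := by ring
      _ = 2 * (L.den : ℝ) * ∑ j, (T.A j i : ℝ) * r j := by rw [r2]
      _ = (L.den : ℝ) * ∑ j, (if j = e1 then (T.A e0 i : ℝ) + T.A e1 i else 2 * T.A j i) *
          (if j = e0 then r e0 - r e1 else if j = e1 then 2 * r e1 else r j) := by
        rw [key]; ring
      _ = ∑ j, (if j = e1 then (T.A e0 i : ℝ) + T.A e1 i else 2 * T.A j i) * L.den *
          (if j = e0 then r e0 - r e1 else if j = e1 then 2 * r e1 else r j) := by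
        rw [Finset.mul_sum]
        apply Finset.sum_congr rfl
        intro j _
        ring
      _ = ∑ j, (L.A j i : ℝ) * T.den * 2 *
          (if j = e0 then r e0 - r e1 else if j = e1 then 2 * r e1 else r j) := by
        apply Finset.sum_congr rfl
        intro j _
        rw [e1']
      _ = (T.den : ℝ) * 2 * ∑ j, (L.A j i : ℝ) *
          (if j = e0 then r e0 - r e1 else if j = e1 then 2 * r e1 else r j) := by
        rw [Finset.mul_sum]
        apply Finset.sum_congr rfl
        intro j _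
        ring

/-- A point of a tetrahedron is in one of the children of a bisection. -/
lemma inTet_bis {T L R : Tet} {e0 e1 : Fin 4} (h : isBis T L R e0 e1 = true) {u : Fin 4 → ℝ}
    (hu : InTet T u) : InTet L u ∨ InTet R u := by
  simp only [isBis, Bool.and_eq_true, decide_eq_true_eq] at h
  obtain ⟨⟨⟨⟨⟨h0, hT⟩, hL⟩, hR⟩, h1⟩, h2⟩ := h
  obtain ⟨r, r0, r1, r2⟩ := hu
  rcases le_total (r e1) (r e0) with hle | hle
  · exact Or.inl (inTet_child h0 hT hL h1 r0 r1 r2 hle)
  · exact Or.inr (inTet_child (Ne.symm h0) hT hR h2 r0 r1 r2 hle)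

/-- The two inequalities on a pair of tetrahedra. -/
def Good (g : Glob) (T U : Tet) : Prop :=
  ∀ u v, InTet T u → InTet U v → DomU u → DomU v →
    kMF u v ≤ pairsV g.pM u v / g.CM ∧ pairsV g.pI u v / g.CI ≤ kIF g u v

lemma good_leaf {g : Glob} {l : Leaf} (hg : g.ok = true) (ht : g.tabOK = true) (hr : chkR g l = true)
    (hm : chkM g l = true) (hi : chkI g l = true) : Good g l.ta l.tb :=
  fun _ _ hu hv du dv => ⟨leaf_M hg ht hr hm hu hv du dv, leaf_I hg ht hr hi hu hv du dv⟩

lemma good_splitA {g : Glob} {T L R U : Tet} {e0 e1 : Fin 4} (h : isBis T L R e0 e1 = true)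
    (hL : Good g L U) (hR : Good g R U) : Good g T U := by
  intro u v hu hv du dv
  rcases inTet_bis h hu with h1 | h1
  · exact hL u v h1 hv du dv
  · exact hR u v h1 hv du dv

lemma good_splitB {g : Glob} {T U L R : Tet} {e0 e1 : Fin 4} (h : isBis U L R e0 e1 = true)
    (hL : Good g T L) (hR : Good g T R) : Good g T U := by
  intro u v hu hv du dv
  rcases inTet_bis h hv with h1 | h1
  · exact hL u v hu h1 du dv
  · exact hR u v hu h1 du dv

/-! ### One sided checks of polynomials in moments -/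

/-- The check of a polynomial in moments on a tetrahedron. -/
def posE (T : Tet) (n K : ℕ) (P : P3) : Ex :=
  polyE (.mul (.c T.den) sA) (rhoA T) (tauA T) (kapA T) n K P

/-- The check of a polynomial in moments on a tetrahedron. -/
def posOK (T : Tet) (n K : ℕ) (P : P3) : Bool :=
  decide (0 < T.den) && p3OK n K P && check (Nat.log2 (posE T n K P).maj + 2) n 0 (posE T n K P)

/-- Positivity of a polynomial in moments on a tetrahedron. -/
def PosOn (T : Tet) (P : P3) : Prop :=
  ∀ u, InTet T u → ∑ i, u i = 0 → 0 ≤ p3V P (rhoU u) (tauU u) (kapU u)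

lemma pos_leaf {T : Tet} {n K : ℕ} {P : P3} (h : posOK T n K P = true) : PosOn T P := by
  intro u hu hs
  simp only [posOK, Bool.and_eq_true, decide_eq_true_eq] at h
  obtain ⟨⟨hd, hp⟩, hc⟩ := h
  obtain ⟨r, r0, r1, r2⟩ := hu
  have hd' : (0 : ℝ) < T.den := by exact_mod_cast hd
  set s : Fin 4 → ℝ := fun j => if j = 0 then 1 else 0 with hs'
  have s0 : ∀ j, 0 ≤ s j := by
    intro j
    simp only [hs']
    split_ifs <;> norm_num
  have s1 : ∑ j, s j = 1 := by simp [hs']
  set U0 : Tet := ⟨[], 1⟩ with hU0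
  have hR : Rep (joinR r s) T U0 u 0 :=
    { hA := by simp only [sA, val_sum4, val_rV, r1]
      hB := by simp only [sB, val_sum4, val_sV, s1]
      hU := fun i => by simp only [linA, val_sum4, Ex.val, val_rV, r2]
      hV := fun i => by simp [linB, val_sum4, Ex.val, val_sV, hU0, Tet.A]
      su := hs
      sv := by simp }
  have hv := check_val hc (joinR r s) (joinR_nonneg r0 s0)
  have hDa : (Ex.mul (.c T.den) sA).val (joinR r s) = (T.den : ℝ) := by simp [Ex.val, hR.hA]
  rw [posE, val_polyE hDa (val_rhoA hR) (val_tauA hR) (val_kapA hR) hp] at hv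
  have hpos : (0 : ℝ) < (T.den : ℝ) ^ n * 4 ^ K := by positivity
  exact nonneg_of_mul_nonneg_right hv hpos

lemma pos_split {T L R : Tet} {e0 e1 : Fin 4} {P : P3} (h : isBis T L R e0 e1 = true)
    (hL : PosOn L P) (hR : PosOn R P) : PosOn T P := by
  intro u hu hs
  rcases inTet_bis h hu with h1 | h1
  · exact hL u h1 hs
  · exact hR u h1 hs

/-- The root of the chamber, scaled by `p / q`. -/
def rootB (p q : ℤ) : Tet :=
  ⟨[[9 * p, -3 * p, -3 * p, -3 * p], [3 * p, 3 * p, -3 * p, -3 * p], [p, p, p, -3 * p], [0, 0, 0, 0]], 3 * q⟩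

/-- The negative of a polynomial in moments. -/
def negP (P : P3) : P3 := P.map fun m => (m.1, m.2.1, m.2.2.1, -m.2.2.2)

/-- The right side of the first inequality as a list. -/
def mkPM (chiI GI HI : P3) (CC T : ℤ) : List (P3 × P3) :=
  [([(1, 0, 0, CC)], [(0, 0, 0, 1)]), ([(0, 0, 0, 1)], [(1, 0, 0, CC)]), (negP chiI, GI), (negP HI, chiI),
    ([(2, 0, 0, -T)], [(1, 0, 0, 1)]), ([(1, 0, 0, -T)], [(2, 0, 0, 1)])]

/-- The right side of the second inequality as a list. -/
def mkPI (chiI vI wI : P3) : List (P3 × P3) := [(chiI, vI), (wI, chiI)]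

end Vale.Agent.Lib.P154Q4
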