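import Vale.Agent.Lib.P154Q4.Cover
import Vale.Agent.Lib.P154Q.Four

/-!
# From a certificate on the chamber to nonreconstruction for four colours
-/

open Filter Topology

namespace Vale.Agent.Lib.P154Q4

open Vale.Agent.Lib.P154GW

noncomputable section

/-- A sorted point is in the chamber. -/
lemma inTet_root {p q : ℤ} (hp : 0 < p) (hq : 0 < q) {u : Fin 4 → ℝ} (h01 : u 1 ≤ u 0) (h12 : u 2 ≤ u 1)
    (h23 : u 3 ≤ u 2) (hs : ∑ i, u i = 0) (hlow : -((p : ℝ) / q) ≤ u 3) : InTet (rootB p q) u := by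
  have hp' : (0 : ℝ) < p := by exact_mod_cast hp
  have hq' : (0 : ℝ) < q := by exact_mod_cast hq
  obtain ⟨l, hl0, hlq, hl1⟩ : ∃ l : ℝ, 0 < l ∧ (p : ℝ) * l = q ∧ ((p : ℝ) / q) * l = 1 :=
    ⟨(q : ℝ) / p, by positivity, by field_simp, by field_simp⟩
  refine ⟨![(u 0 - u 1) * l / 4, (u 1 - u 2) * l / 2, 3 * (u 2 - u 3) * l / 4, 1 + u 3 * l], ?_, ?_, ?_⟩
  · intro j
    fin_cases j
    · show 0 ≤ (u 0 - u 1) * l / 4
      have : 0 ≤ u 0 - u 1 := by linarith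
      positivity
    · show 0 ≤ (u 1 - u 2) * l / 2
      have : 0 ≤ u 1 - u 2 := by linarith
      positivity
    · show 0 ≤ 3 * (u 2 - u 3) * l / 4
      have : 0 ≤ u 2 - u 3 := by linarith
      positivity
    · show 0 ≤ 1 + u 3 * l
      have h1 : -1 ≤ u 3 * l := by
        have : -((p : ℝ) / q) * l ≤ u 3 * l := mul_le_mul_of_nonneg_right hlow hl0.le
        have e : -((p : ℝ) / q) * l = -1 := by linarith
        linarith
      linarith
  · simp only [Fin.sum_univ_four] at hs ⊢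
    simp
    have e : u 3 = -(u 0 + u 1 + u 2) := by linarith
    rw [e]
    ring
  · intro i
    simp only [Fin.sum_univ_four] at hs ⊢
    have e : u 3 = -(u 0 + u 1 + u 2) := by linarith
    fin_cases i
    · simp [rootB, Tet.A]
      rw [e]
      linear_combination (-3 * u 0) * hlq
    · simp [rootB, Tet.A]
      rw [e]
      linear_combination (-3 * u 1) * hlq
    · simp [rootB, Tet.A]
      rw [e]
      linear_combination (-3 * u 2) * hlq
    · simp [rootB, Tet.A]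
      rw [e]
      linear_combination (3 * (u 0 + u 1 + u 2)) * hlq

/-! ### Invariance of the moments -/

lemma rhoU_comp (u : Fin 4 → ℝ) (π : Equiv.Perm (Fin 4)) : rhoU (u ∘ π) = rhoU u := by
  simp only [rhoU, Function.comp]
  rw [Equiv.sum_comp π (fun i => u i ^ 2)]

lemma tauU_comp (u : Fin 4 → ℝ) (π : Equiv.Perm (Fin 4)) : tauU (u ∘ π) = tauU u := by
  simp only [tauU, Function.comp]
  rw [Equiv.sum_comp π (fun i => u i ^ 3)]

lemma kapU_comp (u : Fin 4 → ℝ) (π : Equiv.Perm (Fin 4)) : kapU (u ∘ π) = kapU u := by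
  simp only [kapU, Function.comp]
  rw [Equiv.sum_comp π (fun i => u i ^ 4)]

lemma b5U_comp (u : Fin 4 → ℝ) (π : Equiv.Perm (Fin 4)) : b5U (u ∘ π) = b5U u := by
  simp only [b5U, Function.comp]
  rw [Equiv.sum_comp π (fun i => u i ^ 4 * (1 + u i))]

lemma pairsV_comp (ps : List (P3 × P3)) (u v : Fin 4 → ℝ) (π π' : Equiv.Perm (Fin 4)) :
    pairsV ps (u ∘ π) (v ∘ π') = pairsV ps u v := by
  simp only [pairsV, rhoU_comp, tauU_comp, kapU_comp]

lemma chiU_comp (g : Glob) (u : Fin 4 → ℝ) (π : Equiv.Perm (Fin 4)) : chiU g (u ∘ π) = chiU g u := by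
  simp only [chiU, rhoU_comp, tauU_comp, kapU_comp, b5U_comp]

/-- The identity for the fifth moment. -/
lemma b5U_eq {u : Fin 4 → ℝ} (hs : ∑ i, u i = 0) : b5U u = kapU u + 10 / 3 * (rhoU u * tauU u) := by
  simp only [b5U, kapU, rhoU, tauU, Fin.sum_univ_four] at hs ⊢
  have e : u 3 = -(u 0 + u 1 + u 2) := by linarith
  rw [e]
  ring

/-! ### The coordinates -/

/-- The coordinates `4 c`. -/
def uOf (c : Vale.Agent.Lib.P154Q.V 4) : Fin 4 → ℝ := fun i => 4 * c i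

lemma uOf_comp (c : Vale.Agent.Lib.P154Q.V 4) (p : Fin 4 → Fin 4) : uOf (c ∘ p) = uOf c ∘ p := rfl

lemma uOf_sum {c : Vale.Agent.Lib.P154Q.V 4} (h : ∑ i, c i = 0) : ∑ i, uOf c i = 0 := by
  simp only [uOf]
  rw [← Finset.mul_sum, h, mul_zero]

lemma Nf_eq {a b : Vale.Agent.Lib.P154Q.V 4} (ha : ∑ i, a i = 0) (hb : ∑ i, b i = 0) :
    Vale.Agent.Lib.P154Q.Nf a b = nF (uOf a) (uOf b) := by
  simp only [Vale.Agent.Lib.P154Q.Nf, Vale.Agent.Lib.P154Q.sc, nF, xF, uOf, Fin.sum_univ_four] at ha hb ⊢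
  push_cast
  linear_combination (-1 : ℝ) * ha + (-1 : ℝ) * hb

lemma term_eq (f : (Fin 4 → ℝ) → ℝ) {a b : Vale.Agent.Lib.P154Q.V 4} (ha : ∑ i, a i = 0) (hb : ∑ i, b i = 0) :
    Vale.Agent.Lib.P154Q.Nf a b * f (uOf (Vale.Agent.Lib.P154Q.wF a b)) =
      nF (uOf a) (uOf b) * f (mergeU (uOf a) (uOf b)) := by
  rw [Nf_eq ha hb]
  by_cases hN : nF (uOf a) (uOf b) = 0
  · simp [hN]
  · congr 2
    funext i
    simp only [uOf, Vale.Agent.Lib.P154Q.wF, mergeU, wF, xF]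
    rw [Nf_eq ha hb]
    push_cast
    set N := nF (uOf a) (uOf b) with hNdef
    have hN' : N ≠ 0 := hN
    field_simp

lemma perms4_eq : Vale.Agent.Lib.P154Q.perms4 = (List.range 24).map permOf := by
  decide +kernel

lemma list_sum_range (f : ℕ → ℝ) (n : ℕ) : ((List.range n).map f).sum = ∑ k ∈ Finset.range n, f k := by
  induction n with
  | zero => simp
  | succ n ih =>
    rw [List.range_succ, List.map_append, List.sum_append, ih, Finset.sum_range_succ]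
    simp

/-- The operator in the coordinates `4 c`. -/
lemma KK_eq (f : (Fin 4 → ℝ) → ℝ) {a b : Vale.Agent.Lib.P154Q.V 4} (ha : ∑ i, a i = 0) (hb : ∑ i, b i = 0) :
    Vale.Agent.Lib.P154Q.KK (fun c => f (uOf c)) a b =
      (∑ k ∈ Finset.range 24, nF (uOf a) (uOf b ∘ permOf k) * f (mergeU (uOf a) (uOf b ∘ permOf k))) / 24 := by
  rw [Vale.Agent.Lib.P154Q.KK_four, perms4_eq, List.map_map]
  have e : ((List.range 24).map ((fun σ : Fin 4 → Fin 4 => Vale.Agent.Lib.P154Q.Nf a (b ∘ σ) *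
        f (uOf (Vale.Agent.Lib.P154Q.wF a (b ∘ σ)))) ∘ permOf)) =
      (List.range 24).map (fun k => nF (uOf a) (uOf b ∘ permOf k) * f (mergeU (uOf a) (uOf b ∘ permOf k))) := by
    apply List.map_congr_left
    intro k hk
    have hk' : k ∈ Finset.range 24 := by simpa using hk
    have hp := permOf_bij k hk'
    have hb' : ∑ i, (b ∘ permOf k) i = 0 := by
      rw [← hb]
      exact Function.Bijective.sum_comp hp b
    simp only [Function.comp]
    have := term_eq f ha hb'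
    simpa only [uOf_comp] using this
  rw [e, list_sum_range]
  ring

/-- The operator is invariant under rearrangements of both messages. -/
lemma KK_comp {f : Vale.Agent.Lib.P154Q.V 4 → ℝ} (hf : ∀ (c : Vale.Agent.Lib.P154Q.V 4) (π : Equiv.Perm (Fin 4)), f (c ∘ π) = f c)
    (a b : Vale.Agent.Lib.P154Q.V 4) (π π' : Equiv.Perm (Fin 4)) :
    Vale.Agent.Lib.P154Q.KK f (a ∘ π) (b ∘ π') = Vale.Agent.Lib.P154Q.KK f a b := by
  unfold Vale.Agent.Lib.P154Q.KK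
  congr 1
  apply Fintype.sum_equiv ((Equiv.mulLeft π').trans (Equiv.mulRight π⁻¹))
  intro σ
  set ρ : Equiv.Perm (Fin 4) := ((Equiv.mulLeft π').trans (Equiv.mulRight π⁻¹)) σ with hρ
  have e : b ∘ π' ∘ σ = (b ∘ ρ) ∘ π := by
    funext i
    simp [hρ]
  have e' : (b ∘ π') ∘ σ = (b ∘ ρ) ∘ π := e
  rw [e']
  have h1 : ∀ c : Vale.Agent.Lib.P154Q.V 4, Vale.Agent.Lib.P154Q.Nf (a ∘ π) (c ∘ π) = Vale.Agent.Lib.P154Q.Nf a c := by
    intro c
    simp only [Vale.Agent.Lib.P154Q.Nf, Vale.Agent.Lib.P154Q.sc, Function.comp]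
    rw [Equiv.sum_comp π (fun i => a i * c i)]
  have h2 : ∀ c : Vale.Agent.Lib.P154Q.V 4, Vale.Agent.Lib.P154Q.wF (a ∘ π) (c ∘ π) = Vale.Agent.Lib.P154Q.wF a c ∘ π := by
    intro c
    funext i
    simp only [Vale.Agent.Lib.P154Q.wF, Function.comp, h1]
  rw [h1, h2, hf]

/-- The potential. -/
def psiQ (c : Vale.Agent.Lib.P154Q.V 4) : ℝ := rhoU (uOf c)

/-- The invariant. -/
def chiQ (g : Glob) (c : Vale.Agent.Lib.P154Q.V 4) : ℝ := chiU g (uOf c)

lemma psiQ_comp (c : Vale.Agent.Lib.P154Q.V 4) (π : Equiv.Perm (Fin 4)) : psiQ (c ∘ π) = psiQ c := by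
  simp only [psiQ, uOf_comp, rhoU_comp]

lemma chiQ_comp (g : Glob) (c : Vale.Agent.Lib.P154Q.V 4) (π : Equiv.Perm (Fin 4)) :
    chiQ g (c ∘ π) = chiQ g c := by
  simp only [chiQ, uOf_comp, chiU_comp]

/-- A rearrangement sorting a vector. -/
lemma exists_sort (c : Vale.Agent.Lib.P154Q.V 4) :
    ∃ π : Equiv.Perm (Fin 4), c (π 1) ≤ c (π 0) ∧ c (π 2) ≤ c (π 1) ∧ c (π 3) ≤ c (π 2) := by
  refine ⟨Tuple.sort (fun i => -c i), ?_, ?_, ?_⟩
  all_goals
    have h := Tuple.monotone_sort (fun i => -c i)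
  · have := h (show (0 : Fin 4) ≤ 1 by decide)
    simp only [Function.comp] at this
    linarith
  · have := h (show (1 : Fin 4) ≤ 2 by decide)
    simp only [Function.comp] at this
    linarith
  · have := h (show (2 : Fin 4) ≤ 3 by decide)
    simp only [Function.comp] at this
    linarith

lemma sum_comp_zero {c : Vale.Agent.Lib.P154Q.V 4} (h : ∑ i, c i = 0) (π : Equiv.Perm (Fin 4)) :
    ∑ i, (c ∘ π) i = 0 := by
  rw [← h]
  exact Equiv.sum_comp π c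

/-- The sorted point of a message is in a chamber. -/
lemma sorted_in {p q : ℤ} (hp : 0 < p) (hq : 0 < q) {c : Vale.Agent.Lib.P154Q.V 4}
    (hc : Vale.Agent.Lib.P154Q.InSx ((p : ℝ) / q) c) {π : Equiv.Perm (Fin 4)}
    (h1 : c (π 1) ≤ c (π 0)) (h2 : c (π 2) ≤ c (π 1)) (h3 : c (π 3) ≤ c (π 2)) :
    InTet (rootB p q) (uOf (c ∘ π)) := by
  apply inTet_root hp hq
  · simp only [uOf, Function.comp]; linarith
  · simp only [uOf, Function.comp]; linarith
  · simp only [uOf, Function.comp]; linarith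
  · exact uOf_sum (sum_comp_zero hc.1 π)
  · have := hc.2 (π 3)
    simp only [uOf, Function.comp]
    push_cast at this
    linarith

lemma dom_of {l : ℝ} (hl : l ≤ 1) {c : Vale.Agent.Lib.P154Q.V 4} (hc : Vale.Agent.Lib.P154Q.InSx l c)
    (π : Equiv.Perm (Fin 4)) : DomU (uOf (c ∘ π)) := by
  refine ⟨fun i => ?_, uOf_sum (sum_comp_zero hc.1 π)⟩
  have := hc.2 (π i)
  simp only [uOf, Function.comp]
  push_cast at this
  linarith

/-- The two inequalities for all messages, from the chamber. -/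
theorem good_all {g : Glob} {p q : ℤ} (hp : 0 < p) (hq : 0 < q) (hpq : p ≤ q)
    (h : Good g (rootB 1 1) (rootB p q)) {a b : Vale.Agent.Lib.P154Q.V 4}
    (ha : Vale.Agent.Lib.P154Q.InSx 1 a) (hb : Vale.Agent.Lib.P154Q.InSx ((p : ℝ) / q) b) :
    Vale.Agent.Lib.P154Q.KK psiQ a b ≤ pairsV g.pM (uOf a) (uOf b) / g.CM ∧
      pairsV g.pI (uOf a) (uOf b) / g.CI ≤ Vale.Agent.Lib.P154Q.KK (chiQ g) a b := by
  obtain ⟨π, h1, h2, h3⟩ := exists_sort a
  obtain ⟨π', h4, h5, h6⟩ := exists_sort b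
  have hq' : (0 : ℝ) < q := by exact_mod_cast hq
  have hl : (p : ℝ) / q ≤ 1 := by
    rw [div_le_one hq']
    exact_mod_cast hpq
  have ha1 : Vale.Agent.Lib.P154Q.InSx (((1 : ℤ) : ℝ) / ((1 : ℤ) : ℝ)) a := by simpa using ha
  have hu := sorted_in (p := 1) (q := 1) one_pos one_pos ha1 h1 h2 h3
  have hv := sorted_in hp hq hb h4 h5 h6
  have key := h _ _ hu hv (dom_of le_rfl ha π) (dom_of hl hb π')
  have hs1 := sum_comp_zero ha.1 π
  have hs2 := sum_comp_zero hb.1 π'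
  have e1 : Vale.Agent.Lib.P154Q.KK psiQ a b = kMF (uOf (a ∘ π)) (uOf (b ∘ π')) := by
    rw [← KK_comp psiQ_comp a b π π']
    exact KK_eq rhoU hs1 hs2
  have e2 : Vale.Agent.Lib.P154Q.KK (chiQ g) a b = kIF g (uOf (a ∘ π)) (uOf (b ∘ π')) := by
    rw [← KK_comp (chiQ_comp g) a b π π']
    exact KK_eq (chiU g) hs1 hs2
  rw [e1, e2]
  have e3 := pairsV_comp g.pM (uOf a) (uOf b) π π'
  have e4 := pairsV_comp g.pI (uOf a) (uOf b) π π'
  rw [uOf_comp, uOf_comp]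
  rw [uOf_comp, uOf_comp] at key
  rw [e3, e4] at key
  exact key

lemma p3V_neg (P : P3) (a b c : ℝ) : p3V (negP P) a b c = -p3V P a b c := by
  induction P with
  | nil => simp [negP, p3V]
  | cons m P ih =>
    simp only [negP, p3V, List.map_cons, List.map_map, List.sum_cons] at ih ⊢
    rw [ih]
    push_cast
    ring

/-- The moments of a vector, as arguments. -/
def pm (P : P3) (u : Fin 4 → ℝ) : ℝ := p3V P (rhoU u) (tauU u) (kapU u)

lemma pairsV_mkPM (chiI GI HI : P3) (CC T : ℤ) (u v : Fin 4 → ℝ) :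
    pairsV (mkPM chiI GI HI CC T) u v = (CC : ℝ) * rhoU u + (CC : ℝ) * rhoU v - pm chiI u * pm GI v -
      pm HI u * pm chiI v - (T : ℝ) * (rhoU u ^ 2 * rhoU v + rhoU u * rhoU v ^ 2) := by
  simp only [pairsV, mkPM, List.map_cons, List.map_nil, List.sum_cons, List.sum_nil, p3V_neg, pm]
  simp only [p3V, List.map_cons, List.map_nil, List.sum_cons, List.sum_nil]
  push_cast
  ring

lemma pairsV_mkPI (chiI vI wI : P3) (u v : Fin 4 → ℝ) :
    pairsV (mkPI chiI vI wI) u v = pm chiI u * pm vI v + pm wI u * pm chiI v := by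
  simp only [pairsV, mkPI, List.map_cons, List.map_nil, List.sum_cons, List.sum_nil, pm]
  ring

/-- The polynomial of the invariant. -/
def chiP (g : Glob) (Cr : ℤ) : P3 := [(0, 1, 0, g.C0), (2, 0, 0, g.C3), (0, 0, 1, g.C4 + g.C5), (1, 1, 0, Cr)]

lemma chiU_eq {g : Glob} {Cr : ℤ} (hCr : 3 * Cr = 10 * g.C5) (hC0 : (0 : ℝ) < g.C0) {u : Fin 4 → ℝ}
    (hs : ∑ i, u i = 0) : chiU g u = pm (chiP g Cr) u / g.C0 := by
  have e : (Cr : ℝ) = 10 / 3 * g.C5 := by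
    have : ((3 * Cr : ℤ) : ℝ) = ((10 * g.C5 : ℤ) : ℝ) := by rw [hCr]
    push_cast at this
    linarith
  simp only [chiU, b5U_eq hs, pm, chiP, p3V, List.map_cons, List.map_nil, List.sum_cons, List.sum_nil, e]
  push_cast
  field_simp
  ring

/-- The polynomials of the ray inequality. -/
def rayP0 (g : Glob) (Cr : ℤ) : P3 := [(2, 0, 0, -g.C3), (0, 0, 1, -(g.C4 + g.C5)), (1, 1, 0, -Cr)]

/-- The polynomials of the ray inequality. -/
def rayP1 (g : Glob) (Cr p q : ℤ) : P3 :=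
  [(2, 0, 0, -(q * g.C3)), (0, 0, 1, -(q * (g.C4 + g.C5))), (1, 1, 0, -((q + p) * Cr))]

/-- All that a certificate has to provide. -/
structure Cert (g : Glob) (GI HI vI wI : P3) (Cm Cr T p q : ℤ) : Prop where
  good : Good g (rootB 1 1) (rootB p q)
  hp : 0 < p
  hpq : p ≤ q
  hCm : 0 < Cm
  hC0 : 0 < g.C0
  hT : 0 < T
  hCr : 3 * Cr = 10 * g.C5
  hCM : g.CM = g.C0 * Cm
  hCI : g.CI = g.C0 * Cm
  hpM : g.pM = mkPM (chiP g Cr) GI HI (g.C0 * Cm) T
  hpI : g.pI = mkPI (chiP g Cr) vI wI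
  G0 : PosOn (rootB p q) GI
  v0 : PosOn (rootB p q) vI
  H0 : PosOn (rootB 1 1) HI
  w0 : PosOn (rootB 1 1) wI
  ray0 : PosOn (rootB 1 1) (rayP0 g Cr)
  ray1 : PosOn (rootB 1 1) (rayP1 g Cr p q)
  vtx : 0 ≤ 6 * g.C0 + 9 * g.C3 + 21 * g.C4 + 81 * g.C5

lemma pm_comp (P : P3) (u : Fin 4 → ℝ) (π : Equiv.Perm (Fin 4)) : pm P (u ∘ π) = pm P u := by
  simp only [pm, rhoU_comp, tauU_comp, kapU_comp]

/-- Positivity on the whole scaled simplex from the chamber. -/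
lemma pos_all {P : P3} {p q : ℤ} (hp : 0 < p) (hq : 0 < q) (h : PosOn (rootB p q) P)
    {c : Vale.Agent.Lib.P154Q.V 4} (hc : Vale.Agent.Lib.P154Q.InSx ((p : ℝ) / q) c) : 0 ≤ pm P (uOf c) := by
  obtain ⟨π, h1, h2, h3⟩ := exists_sort c
  have := h _ (sorted_in hp hq hc h1 h2 h3) (uOf_sum (sum_comp_zero hc.1 π))
  rw [uOf_comp] at this
  have e := pm_comp P (uOf c) π
  simp only [pm] at e
  rw [e] at this
  exact this

lemma inSx_one {c : Vale.Agent.Lib.P154Q.V 4} (hc : Vale.Agent.Lib.P154Q.InSx 1 c) :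
    Vale.Agent.Lib.P154Q.InSx (((1 : ℤ) : ℝ) / ((1 : ℤ) : ℝ)) c := by
  simpa using hc

lemma rhoU_uOf (c : Vale.Agent.Lib.P154Q.V 4) : rhoU (uOf c) = 4 * Vale.Agent.Lib.P154Q.p2 c := by
  simp only [rhoU, uOf, Vale.Agent.Lib.P154Q.p2, mul_pow]
  rw [← Finset.mul_sum]
  ring

lemma rhoU_nonneg (u : Fin 4 → ℝ) : 0 ≤ rhoU u := by
  simp only [rhoU]
  positivity

lemma uOf_smul (s : ℝ) (c : Vale.Agent.Lib.P154Q.V 4) : uOf (s • c) = fun i => s * uOf c i := by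
  funext i
  simp only [uOf, Pi.smul_apply, smul_eq_mul]
  ring

lemma rhoU_smul (s : ℝ) (u : Fin 4 → ℝ) : rhoU (fun i => s * u i) = s ^ 2 * rhoU u := by
  simp only [rhoU, mul_pow]
  rw [← Finset.mul_sum]
  ring

lemma tauU_smul (s : ℝ) (u : Fin 4 → ℝ) : tauU (fun i => s * u i) = s ^ 3 * tauU u := by
  simp only [tauU, mul_pow]
  rw [← Finset.mul_sum]
  ring

lemma kapU_smul (s : ℝ) (u : Fin 4 → ℝ) : kapU (fun i => s * u i) = s ^ 4 * kapU u := by
  simp only [kapU, mul_pow]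
  rw [← Finset.mul_sum]
  ring

/-- The ray inequality. -/
lemma ray_ineq {g : Glob} {GI HI vI wI : P3} {Cm Cr T p q : ℤ} (C : Cert g GI HI vI wI Cm Cr T p q)
    (hq : 0 < q) {s : ℝ} (h0 : 0 ≤ s) (hs : s ≤ (p : ℝ) / q) {c : Vale.Agent.Lib.P154Q.V 4}
    (hc : Vale.Agent.Lib.P154Q.InSx 1 c) : s ^ 3 * chiQ g c ≤ chiQ g (s • c) := by
  have hp' : (0 : ℝ) < p := by exact_mod_cast C.hp
  have hq' : (0 : ℝ) < q := by exact_mod_cast hq
  have hC0 : (0 : ℝ) < g.C0 := by exact_mod_cast C.hC0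
  have hs1 : s ≤ 1 := by
    have : (p : ℝ) / q ≤ 1 := by
      rw [div_le_one hq']
      exact_mod_cast C.hpq
    linarith
  set u := uOf c with hu
  have hsu : ∑ i, u i = 0 := uOf_sum hc.1
  have hsu2 : ∑ i, (fun i => s * u i) i = 0 := by
    simp only
    rw [← Finset.mul_sum, hsu, mul_zero]
  have R0 := pos_all (P := rayP0 g Cr) one_pos one_pos C.ray0 (inSx_one hc)
  have R1 := pos_all (P := rayP1 g Cr p q) one_pos one_pos C.ray1 (inSx_one hc)
  simp only [← hu, pm, rayP0, rayP1, p3V, List.map_cons, List.map_nil, List.sum_cons, List.sum_nil] at R0 R1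
  push_cast at R0 R1
  have hCr : (Cr : ℝ) = 10 / 3 * g.C5 := by
    have : ((3 * Cr : ℤ) : ℝ) = ((10 * g.C5 : ℤ) : ℝ) := by rw [C.hCr]
    push_cast at this
    linarith
  have R0' : 0 ≤ -(g.C3 : ℝ) * rhoU u ^ 2 - ((g.C4 : ℝ) + g.C5) * kapU u - (Cr : ℝ) * (rhoU u * tauU u) := by
    convert R0 using 1
    ring
  have R1' : 0 ≤ -((q : ℝ) * g.C3) * rhoU u ^ 2 - (q : ℝ) * ((g.C4 : ℝ) + g.C5) * kapU u -
      ((q : ℝ) + p) * Cr * (rhoU u * tauU u) := by
    convert R1 using 1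
    ring
  have e1 : chiQ g c = tauU u + (g.C3 / g.C0 : ℝ) * rhoU u ^ 2 + (g.C4 / g.C0 : ℝ) * kapU u +
      (g.C5 / g.C0 : ℝ) * (kapU u + 10 / 3 * (rhoU u * tauU u)) := by
    simp only [chiQ, chiU, b5U_eq hsu, ← hu]
  have e2 : chiQ g (s • c) = s ^ 3 * tauU u + (g.C3 / g.C0 : ℝ) * (s ^ 2 * rhoU u) ^ 2 +
      (g.C4 / g.C0 : ℝ) * (s ^ 4 * kapU u) +
      (g.C5 / g.C0 : ℝ) * (s ^ 4 * kapU u + 10 / 3 * (s ^ 2 * rhoU u * (s ^ 3 * tauU u))) := by
    simp only [chiQ, chiU, uOf_smul, ← hu, b5U_eq hsu2, rhoU_smul, tauU_smul, kapU_smul]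
  rw [e1, e2]
  generalize rhoU u = ρ at *
  generalize tauU u = τ at *
  generalize kapU u = κ at *
  -- the convex combination
  obtain ⟨θ, hθ⟩ : ∃ θ : ℝ, θ = s * q / p := ⟨_, rfl⟩
  have hθ0 : 0 ≤ θ := by
    rw [hθ]
    positivity
  have hθ1 : θ ≤ 1 := by
    rw [hθ, div_le_one hp']
    rw [le_div_iff₀ hq'] at hs
    linarith
  have hB : 0 ≤ -(g.C3 : ℝ) * ρ ^ 2 - ((g.C4 : ℝ) + g.C5) * κ - (Cr : ℝ) * (1 + s) * (ρ * τ) := by
    have e3 : -(g.C3 : ℝ) * ρ ^ 2 - ((g.C4 : ℝ) + g.C5) * κ - (Cr : ℝ) * (1 + s) * (ρ * τ) =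
        (1 - θ) * (-(g.C3 : ℝ) * ρ ^ 2 - ((g.C4 : ℝ) + g.C5) * κ - (Cr : ℝ) * (ρ * τ)) +
        θ / q * (-((q : ℝ) * g.C3) * ρ ^ 2 - (q : ℝ) * ((g.C4 : ℝ) + g.C5) * κ -
          ((q : ℝ) + p) * Cr * (ρ * τ)) := by
      rw [hθ]
      field_simp
      ring
    rw [e3]
    have h1 := mul_nonneg (show 0 ≤ 1 - θ by linarith) R0'
    have h2 := mul_nonneg (div_nonneg hθ0 hq'.le) R1'
    linarith
  have hD : 0 ≤ s ^ 3 * (1 - s) * (-(g.C3 : ℝ) * ρ ^ 2 - ((g.C4 : ℝ) + g.C5) * κ -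
      (Cr : ℝ) * (1 + s) * (ρ * τ)) / g.C0 := by
    apply div_nonneg _ hC0.le
    apply mul_nonneg _ hB
    apply mul_nonneg (by positivity) (by linarith)
  have e4 : (s ^ 3 * τ + (g.C3 / g.C0 : ℝ) * (s ^ 2 * ρ) ^ 2 + (g.C4 / g.C0 : ℝ) * (s ^ 4 * κ) +
      (g.C5 / g.C0 : ℝ) * (s ^ 4 * κ + 10 / 3 * (s ^ 2 * ρ * (s ^ 3 * τ)))) -
      s ^ 3 * (τ + (g.C3 / g.C0 : ℝ) * ρ ^ 2 + (g.C4 / g.C0 : ℝ) * κ + (g.C5 / g.C0 : ℝ) * (κ + 10 / 3 * (ρ * τ))) =
      s ^ 3 * (1 - s) * (-(g.C3 : ℝ) * ρ ^ 2 - ((g.C4 : ℝ) + g.C5) * κ - (Cr : ℝ) * (1 + s) * (ρ * τ)) / g.C0 := by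
    rw [hCr]
    field_simp
    ring
  linarith

/-- **Nonreconstruction for four colours** from a certificate. -/
theorem tendsto_cert {g : Glob} {GI HI vI wI : P3} {Cm Cr T p q : ℤ} (C : Cert g GI HI vI wI Cm Cr T p q)
    (hq : 0 < q) {π : ℕ → ℝ} {d lam : ℝ} (hπ0 : ∀ k, 0 ≤ π k) (hπ : HasSum π 1)
    (hmean : HasSum (fun k : ℕ => (k : ℝ) * π k) d) (k₀ : ℕ) (hπ2 : 0 < π (k₀ + 2)) (h0 : 0 ≤ lam)
    (hl : lam ≤ (p : ℝ) / q) (hd : d * lam ^ 2 ≤ 1) :
    Tendsto (advantage π 4 lam) atTop (𝓝 0) := by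
  have hp' : (0 : ℝ) < p := by exact_mod_cast C.hp
  have hq' : (0 : ℝ) < q := by exact_mod_cast hq
  have hCm : (0 : ℝ) < Cm := by exact_mod_cast C.hCm
  have hC0 : (0 : ℝ) < g.C0 := by exact_mod_cast C.hC0
  have hT : (0 : ℝ) < T := by exact_mod_cast C.hT
  have hl1 : lam ≤ 1 := by
    have : (p : ℝ) / q ≤ 1 := by
      rw [div_le_one hq']
      exact_mod_cast C.hpq
    linarith
  have hchi : ∀ c : Vale.Agent.Lib.P154Q.V 4, ∑ i, c i = 0 → chiQ g c = pm (chiP g Cr) (uOf c) / g.C0 :=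
    fun c hc => chiU_eq C.hCr hC0 (uOf_sum hc)
  let t : ℝ := 64 * (T : ℝ) / ((g.C0 : ℝ) * Cm)
  have ht : 0 < t := by positivity
  have hD : Vale.Agent.Lib.P154Q.QData (q := 4) lam (Vale.Agent.Lib.P154Q.InSx ((p : ℝ) / q)) psiQ psiQ (chiQ g)
      (fun b => pm GI (uOf b) / Cm) (fun a => pm HI (uOf a) / Cm) (fun b => pm vI (uOf b) / Cm)
      (fun a => pm wI (uOf a) / Cm) (lam ^ 3) t (1 + 1) := by
    refine ⟨?_, ?_, ?_, ?_, ?_, ?_, ht.le, by positivity, ?_, ?_, ?_, ?_, ?_, ?_, fun _ _ => le_rfl, ?_⟩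
    · intro a b ha hb
      have key := (good_all C.hp hq C.hpq C.good ha hb).1
      rw [C.hpM, C.hCM, pairsV_mkPM] at key
      refine key.trans ?_
      have e1 := hchi a ha.1
      have e2 := hchi b hb.1
      have r1 := rhoU_uOf a
      have r2 := rhoU_uOf b
      have hp2a := Vale.Agent.Lib.P154Q.p2_nonneg a
      have hp2b := Vale.Agent.Lib.P154Q.p2_nonneg b
      simp only [psiQ, e1, e2]
      set A := rhoU (uOf a)
      set B := rhoU (uOf b)
      have hA : 0 ≤ A := rhoU_nonneg _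
      have hB : 0 ≤ B := rhoU_nonneg _
      have e3 : t * (Vale.Agent.Lib.P154Q.p2 a * Vale.Agent.Lib.P154Q.p2 b ^ (1 + 1)) =
          (T : ℝ) * (A * B ^ 2) / ((g.C0 : ℝ) * Cm) := by
        simp only [t]
        rw [r1, r2]
        field_simp
        ring
      rw [e3]
      push_cast
      have hmarg : 0 ≤ (T : ℝ) * (A ^ 2 * B) / ((g.C0 : ℝ) * Cm) := by positivity
      have e4 : ((g.C0 : ℝ) * Cm * A + (g.C0 : ℝ) * Cm * B - pm (chiP g Cr) (uOf a) * pm GI (uOf b) -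
          pm HI (uOf a) * pm (chiP g Cr) (uOf b) - (T : ℝ) * (A ^ 2 * B + A * B ^ 2)) / ((g.C0 : ℝ) * Cm) =
          A + B - pm GI (uOf b) / Cm * (pm (chiP g Cr) (uOf a) / g.C0) -
          pm HI (uOf a) / Cm * (pm (chiP g Cr) (uOf b) / g.C0) - (T : ℝ) * (A * B ^ 2) / ((g.C0 : ℝ) * Cm) -
          (T : ℝ) * (A ^ 2 * B) / ((g.C0 : ℝ) * Cm) := by
        field_simp
        ring
      rw [e4]
      linarith
    · intro a b ha hb
      have key := (good_all C.hp hq C.hpq C.good ha hb).2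
      rw [C.hpI, C.hCI, pairsV_mkPI] at key
      refine le_trans (le_of_eq ?_) key
      simp only [hchi a ha.1, hchi b hb.1]
      push_cast
      field_simp
    · intro b hb
      exact div_nonneg (pos_all C.hp hq C.G0 hb) hCm.le
    · intro a ha
      exact div_nonneg (pos_all one_pos one_pos C.H0 (inSx_one ha)) hCm.le
    · intro b hb
      exact div_nonneg (pos_all C.hp hq C.v0 hb) hCm.le
    · intro a ha
      exact div_nonneg (pos_all one_pos one_pos C.w0 (inSx_one ha)) hCm.le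
    · intro c hc
      refine ⟨?_, fun i => ?_⟩
      · simp only [Pi.smul_apply, smul_eq_mul]
        rw [← Finset.mul_sum, hc.1, mul_zero]
      · have := hc.2 i
        simp only [Pi.smul_apply, smul_eq_mul]
        push_cast at this ⊢
        nlinarith
    · intro i j
      simp only [chan]
      have : 0 ≤ (1 - lam) / ((4 : ℕ) : ℝ) := by
        apply div_nonneg <;> [linarith; positivity]
      split_ifs <;> nlinarith
    · intro c hc
      exact ray_ineq C hq h0 hl hc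
    · have : chiQ g 0 = 0 := by
        have e : uOf 0 = fun _ => (0 : ℝ) := by
          funext i
          simp [uOf]
        simp [chiQ, chiU, e, tauU, rhoU, kapU, b5U]
      rw [this]
    · intro τ
      have e1 : rhoU (uOf (Vale.Agent.Lib.P154Q.vertex τ)) = 3 := by
        fin_cases τ <;> simp [rhoU, uOf, Vale.Agent.Lib.P154Q.vertex, Fin.sum_univ_four] <;> norm_num
      have e2 : tauU (uOf (Vale.Agent.Lib.P154Q.vertex τ)) = 6 := by
        fin_cases τ <;> simp [tauU, uOf, Vale.Agent.Lib.P154Q.vertex, Fin.sum_univ_four] <;> norm_num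
      have e3 : kapU (uOf (Vale.Agent.Lib.P154Q.vertex τ)) = 21 := by
        fin_cases τ <;> simp [kapU, uOf, Vale.Agent.Lib.P154Q.vertex, Fin.sum_univ_four] <;> norm_num
      have e4 : b5U (uOf (Vale.Agent.Lib.P154Q.vertex τ)) = 81 := by
        fin_cases τ <;> simp [b5U, uOf, Vale.Agent.Lib.P154Q.vertex, Fin.sum_univ_four] <;> norm_num
      simp only [chiQ, chiU, e1, e2, e3, e4]
      have hv : (0 : ℝ) ≤ 6 * g.C0 + 9 * g.C3 + 21 * g.C4 + 81 * g.C5 := by exact_mod_cast C.vtx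
      have e5 : (6 : ℝ) + (g.C3 / g.C0 : ℝ) * 3 ^ 2 + (g.C4 / g.C0 : ℝ) * 21 + (g.C5 / g.C0 : ℝ) * 81 =
          (6 * g.C0 + 9 * g.C3 + 21 * g.C4 + 81 * g.C5) / g.C0 := by
        field_simp
        ring
      rw [e5]
      exact div_nonneg hv hC0.le
    · intro c hc
      have e : psiQ (lam • c) = lam ^ 2 * psiQ c := by
        simp only [psiQ, uOf_smul, rhoU_smul]
      rw [e]
    · have e : uOf 0 = fun _ => (0 : ℝ) := by
        funext i
        simp [uOf]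
      simp [psiQ, e, rhoU]
  refine Vale.Agent.Lib.P154Q.tendsto_advantage (K := 1 / 4) (C := 16) hπ0 hπ hmean k₀ hπ2 hD ht
    (fun c _ => rhoU_nonneg _) ?_ ?_ hd
  · intro c _
    simp only [psiQ]
    rw [rhoU_uOf]
    linarith
  · intro c hc
    simp only [psiQ]
    rw [rhoU_uOf]
    have := Vale.Agent.Lib.P154Q.p2_le hc
    push_cast at this
    linarith

end

end Vale.Agent.Lib.P154Q4
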