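import Vale.Agent.Lib.P154Q4.Final4
import Vale.Agent.Lib.P154Q.Binary

/-!
# Nonreconstruction on the binary tree for four colours from a certificate on the scaled chamber
-/

open Filter Topology

namespace Vale.Agent.Lib.P154Q4

open Vale.Agent.Lib.P154GW

noncomputable section

/-- The two inequalities for all messages of the scaled simplex, from the scaled chamber. -/
theorem good_all2 {g : Glob} {p q : ℤ} (hp : 0 < p) (hq : 0 < q) (hpq : p ≤ q)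
    (h : Good g (rootB p q) (rootB p q)) {a b : Vale.Agent.Lib.P154Q.V 4}
    (ha : Vale.Agent.Lib.P154Q.InSx ((p : ℝ) / q) a) (hb : Vale.Agent.Lib.P154Q.InSx ((p : ℝ) / q) b) :
    Vale.Agent.Lib.P154Q.KK psiQ a b ≤ pairsV g.pM (uOf a) (uOf b) / g.CM ∧
      pairsV g.pI (uOf a) (uOf b) / g.CI ≤ Vale.Agent.Lib.P154Q.KK (chiQ g) a b := by
  obtain ⟨π, h1, h2, h3⟩ := exists_sort a
  obtain ⟨π', h4, h5, h6⟩ := exists_sort b
  have hq' : (0 : ℝ) < q := by exact_mod_cast hq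
  have hl : (p : ℝ) / q ≤ 1 := by
    rw [div_le_one hq']
    exact_mod_cast hpq
  have hu := sorted_in hp hq ha h1 h2 h3
  have hv := sorted_in hp hq hb h4 h5 h6
  have key := h _ _ hu hv (dom_of hl ha π) (dom_of hl hb π')
  have hs1 := sum_comp_zero ha.1 π
  have hs2 := sum_comp_zero hb.1 π'
  have e1 : Vale.Agent.Lib.P154Q.KK psiQ a b = kMF (uOf (a ∘ π)) (uOf (b ∘ π')) := by
    rw [← KK_comp psiQ_comp a b π π']
    exact KK_eq rhoU hs1 hs2
  have e2 : Vale.Agent.Lib.P154Q.KK (chiQ g) a b = kIF g (uOf (a ∘ π)) (uOf (b ∘ π')) := by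
    rw [← KK_comp (chiQ_comp g) a b π π']
    exact KK_eq (chiU g) hs1 hs2
  rw [e1, e2]
  have e3 := pairsV_comp g.pM (uOf a) (uOf b) π π'
  have e4 := pairsV_comp g.pI (uOf a) (uOf b) π π'
  rw [uOf_comp, uOf_comp]
  rw [uOf_comp, uOf_comp] at key
  rw [e3, e4] at key
  exact key

/-- All that a certificate for the binary tree has to provide. -/
structure Cert2 (g : Glob) (GI HI vI wI : P3) (Cm Cr T p q : ℤ) : Prop where
  good : Good g (rootB p q) (rootB p q)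
  hp : 0 < p
  hpq : p ≤ q
  hCm : 0 < Cm
  hC0 : 0 < g.C0
  hT : 0 < T
  hCr : 3 * Cr = 10 * g.C5
  hCM : g.CM = g.C0 * Cm
  hCI : g.CI = g.C0 * Cm
  hpM : g.pM = mkPM (chiP g Cr) GI HI (g.C0 * Cm) T
  hpI : g.pI = mkPI (chiP g Cr) vI wI
  G0 : PosOn (rootB p q) GI
  v0 : PosOn (rootB p q) vI
  H0 : PosOn (rootB p q) HI
  w0 : PosOn (rootB p q) wI
  ray0 : PosOn (rootB 1 1) (rayP0 g Cr)
  ray1 : PosOn (rootB 1 1) (rayP1 g Cr p q)
  vtx : 0 ≤ 6 * g.C0 + 9 * g.C3 + 21 * g.C4 + 81 * g.C5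

/-- The ray inequality. -/
lemma ray_ineq2 {g : Glob} {GI HI vI wI : P3} {Cm Cr T p q : ℤ} (C : Cert2 g GI HI vI wI Cm Cr T p q)
    (hq : 0 < q) {s : ℝ} (h0 : 0 ≤ s) (hs : s ≤ (p : ℝ) / q) {c : Vale.Agent.Lib.P154Q.V 4}
    (hc : Vale.Agent.Lib.P154Q.InSx 1 c) : s ^ 3 * chiQ g c ≤ chiQ g (s • c) := by
  have hp' : (0 : ℝ) < p := by exact_mod_cast C.hp
  have hq' : (0 : ℝ) < q := by exact_mod_cast hq
  have hC0 : (0 : ℝ) < g.C0 := by exact_mod_cast C.hC0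
  have hs1 : s ≤ 1 := by
    have : (p : ℝ) / q ≤ 1 := by
      rw [div_le_one hq']
      exact_mod_cast C.hpq
    linarith
  set u := uOf c with hu
  have hsu : ∑ i, u i = 0 := uOf_sum hc.1
  have hsu2 : ∑ i, (fun i => s * u i) i = 0 := by
    simp only
    rw [← Finset.mul_sum, hsu, mul_zero]
  have R0 := pos_all (P := rayP0 g Cr) one_pos one_pos C.ray0 (inSx_one hc)
  have R1 := pos_all (P := rayP1 g Cr p q) one_pos one_pos C.ray1 (inSx_one hc)
  simp only [← hu, pm, rayP0, rayP1, p3V, List.map_cons, List.map_nil, List.sum_cons, List.sum_nil] at R0 R1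
  push_cast at R0 R1
  have hCr : (Cr : ℝ) = 10 / 3 * g.C5 := by
    have : ((3 * Cr : ℤ) : ℝ) = ((10 * g.C5 : ℤ) : ℝ) := by rw [C.hCr]
    push_cast at this
    linarith
  have R0' : 0 ≤ -(g.C3 : ℝ) * rhoU u ^ 2 - ((g.C4 : ℝ) + g.C5) * kapU u - (Cr : ℝ) * (rhoU u * tauU u) := by
    convert R0 using 1
    ring
  have R1' : 0 ≤ -((q : ℝ) * g.C3) * rhoU u ^ 2 - (q : ℝ) * ((g.C4 : ℝ) + g.C5) * kapU u -
      ((q : ℝ) + p) * Cr * (rhoU u * tauU u) := by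
    convert R1 using 1
    ring
  have e1 : chiQ g c = tauU u + (g.C3 / g.C0 : ℝ) * rhoU u ^ 2 + (g.C4 / g.C0 : ℝ) * kapU u +
      (g.C5 / g.C0 : ℝ) * (kapU u + 10 / 3 * (rhoU u * tauU u)) := by
    simp only [chiQ, chiU, b5U_eq hsu, ← hu]
  have e2 : chiQ g (s • c) = s ^ 3 * tauU u + (g.C3 / g.C0 : ℝ) * (s ^ 2 * rhoU u) ^ 2 +
      (g.C4 / g.C0 : ℝ) * (s ^ 4 * kapU u) +
      (g.C5 / g.C0 : ℝ) * (s ^ 4 * kapU u + 10 / 3 * (s ^ 2 * rhoU u * (s ^ 3 * tauU u))) := by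
    simp only [chiQ, chiU, uOf_smul, ← hu, b5U_eq hsu2, rhoU_smul, tauU_smul, kapU_smul]
  rw [e1, e2]
  generalize rhoU u = ρ at *
  generalize tauU u = τ at *
  generalize kapU u = κ at *
  -- the convex combination
  obtain ⟨θ, hθ⟩ : ∃ θ : ℝ, θ = s * q / p := ⟨_, rfl⟩
  have hθ0 : 0 ≤ θ := by
    rw [hθ]
    positivity
  have hθ1 : θ ≤ 1 := by
    rw [hθ, div_le_one hp']
    rw [le_div_iff₀ hq'] at hs
    linarith
  have hB : 0 ≤ -(g.C3 : ℝ) * ρ ^ 2 - ((g.C4 : ℝ) + g.C5) * κ - (Cr : ℝ) * (1 + s) * (ρ * τ) := by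
    have e3 : -(g.C3 : ℝ) * ρ ^ 2 - ((g.C4 : ℝ) + g.C5) * κ - (Cr : ℝ) * (1 + s) * (ρ * τ) =
        (1 - θ) * (-(g.C3 : ℝ) * ρ ^ 2 - ((g.C4 : ℝ) + g.C5) * κ - (Cr : ℝ) * (ρ * τ)) +
        θ / q * (-((q : ℝ) * g.C3) * ρ ^ 2 - (q : ℝ) * ((g.C4 : ℝ) + g.C5) * κ -
          ((q : ℝ) + p) * Cr * (ρ * τ)) := by
      rw [hθ]
      field_simp
      ring
    rw [e3]
    have h1 := mul_nonneg (show 0 ≤ 1 - θ by linarith) R0'
    have h2 := mul_nonneg (div_nonneg hθ0 hq'.le) R1'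
    linarith
  have hD : 0 ≤ s ^ 3 * (1 - s) * (-(g.C3 : ℝ) * ρ ^ 2 - ((g.C4 : ℝ) + g.C5) * κ -
      (Cr : ℝ) * (1 + s) * (ρ * τ)) / g.C0 := by
    apply div_nonneg _ hC0.le
    apply mul_nonneg _ hB
    apply mul_nonneg (by positivity) (by linarith)
  have e4 : (s ^ 3 * τ + (g.C3 / g.C0 : ℝ) * (s ^ 2 * ρ) ^ 2 + (g.C4 / g.C0 : ℝ) * (s ^ 4 * κ) +
      (g.C5 / g.C0 : ℝ) * (s ^ 4 * κ + 10 / 3 * (s ^ 2 * ρ * (s ^ 3 * τ)))) -
      s ^ 3 * (τ + (g.C3 / g.C0 : ℝ) * ρ ^ 2 + (g.C4 / g.C0 : ℝ) * κ + (g.C5 / g.C0 : ℝ) * (κ + 10 / 3 * (ρ * τ))) =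
      s ^ 3 * (1 - s) * (-(g.C3 : ℝ) * ρ ^ 2 - ((g.C4 : ℝ) + g.C5) * κ - (Cr : ℝ) * (1 + s) * (ρ * τ)) / g.C0 := by
    rw [hCr]
    field_simp
    ring
  linarith

/-- **Nonreconstruction for four colours on the binary tree** from a certificate. -/
theorem tendsto_cert2 {g : Glob} {GI HI vI wI : P3} {Cm Cr T p q : ℤ} (C : Cert2 g GI HI vI wI Cm Cr T p q)
    (hq : 0 < q) {lam : ℝ} (h0 : 0 ≤ lam) (hl : lam ≤ (p : ℝ) / q) (hd : 2 * lam ^ 2 ≤ 1) :
    Tendsto (advantage (Vale.Agent.Lib.P154Q.dirac 2) 4 lam) atTop (𝓝 0) := by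
  have hp' : (0 : ℝ) < p := by exact_mod_cast C.hp
  have hq' : (0 : ℝ) < q := by exact_mod_cast hq
  have hCm : (0 : ℝ) < Cm := by exact_mod_cast C.hCm
  have hC0 : (0 : ℝ) < g.C0 := by exact_mod_cast C.hC0
  have hT : (0 : ℝ) < T := by exact_mod_cast C.hT
  have hl1 : lam ≤ 1 := by
    have : (p : ℝ) / q ≤ 1 := by
      rw [div_le_one hq']
      exact_mod_cast C.hpq
    linarith
  have hchi : ∀ c : Vale.Agent.Lib.P154Q.V 4, ∑ i, c i = 0 → chiQ g c = pm (chiP g Cr) (uOf c) / g.C0 :=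
    fun c hc => chiU_eq C.hCr hC0 (uOf_sum hc)
  let t : ℝ := 64 * (T : ℝ) / ((g.C0 : ℝ) * Cm)
  have ht : 0 < t := by positivity
  have hD : Vale.Agent.Lib.P154Q.QData2 (q := 4) lam (Vale.Agent.Lib.P154Q.InSx ((p : ℝ) / q)) psiQ psiQ (chiQ g)
      (fun b => pm GI (uOf b) / Cm) (fun a => pm HI (uOf a) / Cm) (fun b => pm vI (uOf b) / Cm)
      (fun a => pm wI (uOf a) / Cm) (lam ^ 3) t (1 + 1) := by
    refine ⟨?_, ?_, ?_, ?_, ?_, ?_, ht.le, by positivity, ?_, ?_, ?_, ?_, ?_, fun _ _ => le_rfl⟩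
    · intro a b ha hb
      have key := (good_all2 C.hp hq C.hpq C.good ha hb).1
      rw [C.hpM, C.hCM, pairsV_mkPM] at key
      refine key.trans ?_
      have e1 := hchi a ha.1
      have e2 := hchi b hb.1
      have r1 := rhoU_uOf a
      have r2 := rhoU_uOf b
      have hp2a := Vale.Agent.Lib.P154Q.p2_nonneg a
      have hp2b := Vale.Agent.Lib.P154Q.p2_nonneg b
      simp only [psiQ, e1, e2]
      set A := rhoU (uOf a)
      set B := rhoU (uOf b)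
      have hA : 0 ≤ A := rhoU_nonneg _
      have hB : 0 ≤ B := rhoU_nonneg _
      have e3 : t * (Vale.Agent.Lib.P154Q.p2 a * Vale.Agent.Lib.P154Q.p2 b ^ (1 + 1)) =
          (T : ℝ) * (A * B ^ 2) / ((g.C0 : ℝ) * Cm) := by
        simp only [t]
        rw [r1, r2]
        field_simp
        ring
      rw [e3]
      push_cast
      have hmarg : 0 ≤ (T : ℝ) * (A ^ 2 * B) / ((g.C0 : ℝ) * Cm) := by positivity
      have e4 : ((g.C0 : ℝ) * Cm * A + (g.C0 : ℝ) * Cm * B - pm (chiP g Cr) (uOf a) * pm GI (uOf b) -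
          pm HI (uOf a) * pm (chiP g Cr) (uOf b) - (T : ℝ) * (A ^ 2 * B + A * B ^ 2)) / ((g.C0 : ℝ) * Cm) =
          A + B - pm GI (uOf b) / Cm * (pm (chiP g Cr) (uOf a) / g.C0) -
          pm HI (uOf a) / Cm * (pm (chiP g Cr) (uOf b) / g.C0) - (T : ℝ) * (A * B ^ 2) / ((g.C0 : ℝ) * Cm) -
          (T : ℝ) * (A ^ 2 * B) / ((g.C0 : ℝ) * Cm) := by
        field_simp
        ring
      rw [e4]
      linarith
    · intro a b ha hb
      have key := (good_all2 C.hp hq C.hpq C.good ha hb).2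
      rw [C.hpI, C.hCI, pairsV_mkPI] at key
      refine le_trans (le_of_eq ?_) key
      simp only [hchi a ha.1, hchi b hb.1]
      push_cast
      field_simp
    · intro b hb
      exact div_nonneg (pos_all C.hp hq C.G0 hb) hCm.le
    · intro a ha
      exact div_nonneg (pos_all C.hp hq C.H0 ha) hCm.le
    · intro b hb
      exact div_nonneg (pos_all C.hp hq C.v0 hb) hCm.le
    · intro a ha
      exact div_nonneg (pos_all C.hp hq C.w0 ha) hCm.le
    · intro c hc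
      refine ⟨?_, fun i => ?_⟩
      · simp only [Pi.smul_apply, smul_eq_mul]
        rw [← Finset.mul_sum, hc.1, mul_zero]
      · have := hc.2 i
        simp only [Pi.smul_apply, smul_eq_mul]
        push_cast at this ⊢
        nlinarith
    · intro i j
      simp only [chan]
      have : 0 ≤ (1 - lam) / ((4 : ℕ) : ℝ) := by
        apply div_nonneg <;> [linarith; positivity]
      split_ifs <;> nlinarith
    · intro c hc
      exact ray_ineq2 C hq h0 hl hc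
    · intro τ
      have e1 : rhoU (uOf (Vale.Agent.Lib.P154Q.vertex τ)) = 3 := by
        fin_cases τ <;> simp [rhoU, uOf, Vale.Agent.Lib.P154Q.vertex, Fin.sum_univ_four] <;> norm_num
      have e2 : tauU (uOf (Vale.Agent.Lib.P154Q.vertex τ)) = 6 := by
        fin_cases τ <;> simp [tauU, uOf, Vale.Agent.Lib.P154Q.vertex, Fin.sum_univ_four] <;> norm_num
      have e3 : kapU (uOf (Vale.Agent.Lib.P154Q.vertex τ)) = 21 := by
        fin_cases τ <;> simp [kapU, uOf, Vale.Agent.Lib.P154Q.vertex, Fin.sum_univ_four] <;> norm_num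
      have e4 : b5U (uOf (Vale.Agent.Lib.P154Q.vertex τ)) = 81 := by
        fin_cases τ <;> simp [b5U, uOf, Vale.Agent.Lib.P154Q.vertex, Fin.sum_univ_four] <;> norm_num
      simp only [chiQ, chiU, e1, e2, e3, e4]
      have hv : (0 : ℝ) ≤ 6 * g.C0 + 9 * g.C3 + 21 * g.C4 + 81 * g.C5 := by exact_mod_cast C.vtx
      have e5 : (6 : ℝ) + (g.C3 / g.C0 : ℝ) * 3 ^ 2 + (g.C4 / g.C0 : ℝ) * 21 + (g.C5 / g.C0 : ℝ) * 81 =
          (6 * g.C0 + 9 * g.C3 + 21 * g.C4 + 81 * g.C5) / g.C0 := by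
        field_simp
        ring
      rw [e5]
      exact div_nonneg hv hC0.le
    · intro c hc
      have e : psiQ (lam • c) = lam ^ 2 * psiQ c := by
        simp only [psiQ, uOf_smul, rhoU_smul]
      rw [e]
  refine Vale.Agent.Lib.P154Q.tendsto_binary (K := 1 / 4) hD ht (fun c _ => rhoU_nonneg _) hd ?_
  intro c _
  simp only [psiQ]
  rw [rhoU_uOf]
  linarith

end

end Vale.Agent.Lib.P154Q4
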