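import Vale.Agent.Lib.P154Q4.Kron8

/-!
# Expressions for the four state certificates

Building blocks, as expressions over eight variables: the merge of two messages, given on two
tetrahedra with integer vertices, and the values of these expressions at points of the two tetrahedra.
-/


namespace Vale.Agent.Lib.P154Q4

open Ex

/-- Sum of four expressions. -/
def sum4 (f : Fin 4 → Ex) : Ex := .add (.add (.add (f 0) (f 1)) (f 2)) (f 3)

lemma val_sum4 (r : Fin 8 → ℝ) (f : Fin 4 → Ex) : (sum4 f).val r = ∑ i, (f i).val r := by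
  simp [sum4, val, Fin.sum_univ_four]

/-- Sum of a list of expressions, without a zero term. -/
def sumL : List Ex → Ex
  | [] => .c 0
  | [x] => x
  | x :: y :: l => .add x (sumL (y :: l))

lemma val_sumL (r : Fin 8 → ℝ) : ∀ l : List Ex, (sumL l).val r = (l.map (fun e => e.val r)).sum
  | [] => by simp [sumL, val]
  | [x] => by simp [sumL]
  | x :: y :: l => by
    have := val_sumL r (y :: l)
    simp only [sumL, val] at this ⊢
    rw [this]
    simp

/-- The variables of the first group. -/
def rV (j : Fin 4) : Ex := .v ⟨j.val, by omega⟩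

/-- The variables of the second group. -/
def sV (j : Fin 4) : Ex := .v ⟨j.val + 4, by omega⟩

/-- Sum of the first group. -/
def sA : Ex := sum4 rV

/-- Sum of the second group. -/
def sB : Ex := sum4 sV

/-- A tetrahedron with integer vertices over a common denominator. -/
structure Tet where
  tab : List (List ℤ)
  den : ℤ

/-- The coordinate `i` of the vertex `j`, times the denominator. -/
def Tet.A (T : Tet) (j i : Fin 4) : ℤ := (T.tab.getD j.val []).getD i.val 0

/-- The linear form of a coordinate on the first tetrahedron. -/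
def linA (T : Tet) (i : Fin 4) : Ex := sum4 fun j => .mul (.c (T.A j i)) (rV j)

/-- The linear form of a coordinate on the second tetrahedron. -/
def linB (T : Tet) (i : Fin 4) : Ex := sum4 fun j => .mul (.c (T.A j i)) (sV j)

/-! ### The merge -/

/-- One plus a coordinate of the first message, homogeneous. -/
def xE (T : Tet) (i : Fin 4) : Ex := .add (.mul (.c T.den) sA) (linA T i)

/-- One plus a coordinate of the second message, homogeneous. -/
def yE (U : Tet) (p : Fin 4 → Fin 4) (i : Fin 4) : Ex := .add (.mul (.c U.den) sB) (linB U (p i))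

/-- The product of the two. -/
def prE (T U : Tet) (p : Fin 4 → Fin 4) (i : Fin 4) : Ex := .mul (xE T i) (yE U p i)

/-- Four times the normalization. -/
def nE (T U : Tet) (p : Fin 4 → Fin 4) : Ex := sum4 (prE T U p)

/-- The scale. -/
def dD (T U : Tet) : ℤ := 4 * T.den * U.den

/-- The homogeneous scale. -/
def dmE (T U : Tet) : Ex := .mul (.mul (.c (dD T U)) sA) sB

/-- The overlap. -/
def tmE (T U : Tet) (p : Fin 4 → Fin 4) : Ex := sum4 fun i => .mul (linA T i) (linB U (p i))

/-- The coordinates of the numerator of the merge. -/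
def wE (T U : Tet) (p : Fin 4 → Fin 4) (i : Fin 4) : Ex :=
  .sub (.mul (.c 4) (prE T U p i)) (nE T U p)

/-- Horner homogeneous form of a polynomial. -/
def hornerE : List ℤ → Ex → Ex → Ex
  | [], _, _ => .c 0
  | [q], _, _ => .c q
  | q :: q' :: l, T, Dm => .add (.mul (.c q) (.pow Dm (l.length + 1))) (.mul T (hornerE (q' :: l) T Dm))

/-- The value of a polynomial given by its coefficients. -/
noncomputable def qVal : List ℤ → ℝ → ℝ
  | [], _ => 0
  | q :: l, t => (q : ℝ) + t * qVal l t

/-- Numerators. -/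
def w2E (T U : Tet) (p : Fin 4 → Fin 4) : Ex := sum4 fun i => .pow (wE T U p i) 2

/-- Numerators. -/
def w2xE (T U : Tet) (p : Fin 4 → Fin 4) : Ex := sum4 fun i => .mul (.pow (wE T U p i) 2) (prE T U p i)

/-- Numerators. -/
def w4E (T U : Tet) (p : Fin 4 → Fin 4) : Ex := sum4 fun i => .pow (.pow (wE T U p i) 2) 2

/-- Numerators. -/
def w4xE (T U : Tet) (p : Fin 4 → Fin 4) : Ex :=
  sum4 fun i => .mul (.pow (.pow (wE T U p i) 2) 2) (prE T U p i)

/-- A numerator of degree `k` times a polynomial, raised to degree `n`. -/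
def termE (T U : Tet) (p : Fin 4 → Fin 4) (num : Ex) (k n : ℕ) (qs : List ℤ) : Ex :=
  .mul (.mul num (hornerE qs (tmE T U p) (dmE T U))) (.pow (dmE T U) (n - (k + (qs.length - 1))))

/-! ### Real values -/

/-- The product of coordinates. -/
noncomputable def xF (u v : Fin 4 → ℝ) (i : Fin 4) : ℝ := (1 + u i) * (1 + v i)

/-- The normalization. -/
noncomputable def nF (u v : Fin 4 → ℝ) : ℝ := (∑ i, xF u v i) / 4

/-- The numerator of the merge. -/
noncomputable def wF (u v : Fin 4 → ℝ) (i : Fin 4) : ℝ := xF u v i - nF u v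

/-- Average of the squares. -/
noncomputable def r2F (u v : Fin 4 → ℝ) : ℝ := (∑ i, wF u v i ^ 2) / 4

/-- Average of the squares, weighted. -/
noncomputable def m2xF (u v : Fin 4 → ℝ) : ℝ := (∑ i, wF u v i ^ 2 * xF u v i) / 4

/-- Average of the fourth powers. -/
noncomputable def m4F (u v : Fin 4 → ℝ) : ℝ := (∑ i, wF u v i ^ 4) / 4

/-- Average of the fourth powers, weighted. -/
noncomputable def m4xF (u v : Fin 4 → ℝ) : ℝ := (∑ i, wF u v i ^ 4 * xF u v i) / 4

section vals

variable {R : Fin 8 → ℝ} {T U : Tet} {u v : Fin 4 → ℝ}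

/-- The point `R` represents the messages `u`, `v`. -/
structure Rep (R : Fin 8 → ℝ) (T U : Tet) (u v : Fin 4 → ℝ) : Prop where
  hA : sA.val R = 1
  hB : sB.val R = 1
  hU : ∀ i, (linA T i).val R = T.den * u i
  hV : ∀ i, (linB U i).val R = U.den * v i
  su : ∑ i, u i = 0
  sv : ∑ i, v i = 0

variable (h : Rep R T U u v) (p : Fin 4 → Fin 4) (hp : Function.Bijective p)

include h

lemma val_xE (i : Fin 4) : (xE T i).val R = T.den * (1 + u i) := by
  simp only [xE, val, h.hA, h.hU]
  ring

lemma val_yE (i : Fin 4) : (yE U p i).val R = U.den * (1 + (v ∘ p) i) := by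
  simp only [yE, val, h.hB, h.hV, Function.comp]
  ring

lemma val_prE (i : Fin 4) : (prE T U p i).val R = T.den * U.den * xF u (v ∘ p) i := by
  simp only [prE, val, val_xE h, val_yE h, xF]
  ring

lemma val_nE : (nE T U p).val R = 4 * T.den * U.den * nF u (v ∘ p) := by
  simp only [nE, val_sum4, val_prE h, nF]
  rw [← Finset.mul_sum]
  ring

lemma val_dmE : (dmE T U).val R = (dD T U : ℝ) := by
  simp [dmE, val, h.hA, h.hB]

lemma cast_dD : (dD T U : ℝ) = 4 * T.den * U.den := by
  simp [dD]

lemma nF_sub_one (hp : Function.Bijective p) : nF u (v ∘ p) - 1 = (∑ i, u i * v (p i)) / 4 := by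
  have h1 : ∑ i, v (p i) = 0 := by
    rw [← h.sv]
    exact Function.Bijective.sum_comp hp v
  have h2 := h.su
  have h3 : ∀ i, xF u (v ∘ p) i = 1 + u i + v (p i) + u i * v (p i) := by
    intro i
    simp only [xF, Function.comp]
    ring
  simp only [nF, h3, Finset.sum_add_distrib, h1, h2]
  simp only [Finset.sum_const, Finset.card_univ, Fintype.card_fin, nsmul_eq_mul]
  push_cast
  ring

lemma val_tmE (hp : Function.Bijective p) :
    (tmE T U p).val R = (dD T U : ℝ) * (nF u (v ∘ p) - 1) := by
  rw [nF_sub_one h p hp, cast_dD h]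
  simp only [tmE, val_sum4, Ex.val, h.hU, h.hV]
  have e : ∀ i, (T.den : ℝ) * u i * ((U.den : ℝ) * v (p i)) = (T.den : ℝ) * U.den * (u i * v (p i)) := by
    intro i; ring
  simp only [e]
  rw [← Finset.mul_sum]
  ring

lemma val_wE (hp : Function.Bijective p) (i : Fin 4) :
    (wE T U p i).val R = (dD T U : ℝ) * wF u (v ∘ p) i := by
  simp only [wE, Ex.val, val_prE h, val_nE h, cast_dD h, wF]
  push_cast
  ring

omit h in
lemma val_horner {D t : ℝ} {Te Dm : Ex} (hT : Te.val R = D * t) (hD : Dm.val R = D) :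
    ∀ qs : List ℤ, (hornerE qs Te Dm).val R = D ^ (qs.length - 1) * qVal qs t
  | [] => by simp [hornerE, val, qVal]
  | [q] => by simp [hornerE, val, qVal]
  | q :: q' :: l => by
    have := val_horner hT hD (q' :: l)
    simp only [hornerE, val, hD, hT, this, qVal, List.length_cons, Nat.add_sub_cancel]
    simp only [qVal] at this ⊢
    ring

include hp in
lemma val_w2E : (w2E T U p).val R = 4 * (dD T U : ℝ) ^ 2 * r2F u (v ∘ p) := by
  simp only [w2E, val_sum4, val, val_wE h p hp, r2F, mul_pow]
  rw [← Finset.mul_sum]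
  ring

include hp in
lemma val_w2xE : (w2xE T U p).val R = (dD T U : ℝ) ^ 3 * m2xF u (v ∘ p) := by
  simp only [w2xE, val_sum4, val, val_wE h p hp, val_prE h, m2xF, mul_pow]
  have e : ∀ i, (dD T U : ℝ) ^ 2 * wF u (v ∘ p) i ^ 2 * ((T.den : ℝ) * U.den * xF u (v ∘ p) i) =
      (dD T U : ℝ) ^ 2 * ((T.den : ℝ) * U.den) * (wF u (v ∘ p) i ^ 2 * xF u (v ∘ p) i) := by
    intro i; ring
  simp only [e]
  rw [← Finset.mul_sum, cast_dD h]
  ring

include hp in
lemma val_w4E : (w4E T U p).val R = 4 * (dD T U : ℝ) ^ 4 * m4F u (v ∘ p) := by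
  simp only [w4E, val_sum4, val, val_wE h p hp, m4F, mul_pow]
  have e : ∀ i, ((dD T U : ℝ) ^ 2) ^ 2 * (wF u (v ∘ p) i ^ 2) ^ 2 =
      (dD T U : ℝ) ^ 4 * wF u (v ∘ p) i ^ 4 := by
    intro i; ring
  simp only [e]
  rw [← Finset.mul_sum]
  ring

include hp in
lemma val_w4xE : (w4xE T U p).val R = (dD T U : ℝ) ^ 5 * m4xF u (v ∘ p) := by
  simp only [w4xE, val_sum4, val, val_wE h p hp, val_prE h, m4xF, mul_pow]
  have e : ∀ i, ((dD T U : ℝ) ^ 2) ^ 2 * (wF u (v ∘ p) i ^ 2) ^ 2 * ((T.den : ℝ) * U.den * xF u (v ∘ p) i) =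
      (dD T U : ℝ) ^ 4 * ((T.den : ℝ) * U.den) * (wF u (v ∘ p) i ^ 4 * xF u (v ∘ p) i) := by
    intro i; ring
  simp only [e]
  rw [← Finset.mul_sum, cast_dD h]
  ring

include hp in
lemma val_termE {num : Ex} {k n : ℕ} {qs : List ℤ} {A : ℝ}
    (hnum : num.val R = A * (dD T U : ℝ) ^ k) (hk : k + (qs.length - 1) ≤ n) :
    (termE T U p num k n qs).val R = A * (dD T U : ℝ) ^ n * qVal qs (nF u (v ∘ p) - 1) := by
  simp only [termE, val, hnum, val_horner (val_tmE h p hp) (val_dmE h) qs, val_dmE h]
  have : n = k + (qs.length - 1) + (n - (k + (qs.length - 1))) := by omega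
  conv_rhs => rw [this]
  rw [pow_add, pow_add]
  ring

end vals

end Vale.Agent.Lib.P154Q4
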