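import Mathlib.Algebra.MvPolynomial.Eval
import Mathlib.Algebra.MvPolynomial.CommRing
import Mathlib.Data.Nat.Bitwise
import Mathlib.Algebra.Order.Ring.GeomSum
import Mathlib.Algebra.Ring.GeomSum
import Mathlib.Data.Real.Basic
import Mathlib.Analysis.Normed.Ring.Basic
import Mathlib.Tactic.Linarith
import Mathlib.Tactic.Positivity
import Mathlib.Tactic.FieldSimp
import Mathlib.Tactic.FinCases
import Mathlib.Tactic.IntervalCases
import Mathlib.Tactic.Ring
import Mathlib.Tactic.NormNum
import Mathlib.Data.Fin.Tuple.Reflection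
import Mathlib.Algebra.BigOperators.Fin
import Mathlib.Algebra.BigOperators.Field

/-!
# Positivity of bihomogeneous polynomials by Kronecker substitution

An expression `e` over eight variables (four in each of two groups) denotes a polynomial with integer
coefficients.  If it is bihomogeneous of bidegree `(n, m)` and the sum of the absolute values of the
coefficients of a majorant is below `2 ^ (W - 1)`, then all the coefficients can be read off, as digits
in base `2 ^ W`, from one big integer: the value of `e` at the powers of `2 ^ W`.  All digits being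
small and nonnegative is one bitwise test.
-/

open MvPolynomial Finset

namespace Vale.Agent.Lib.P154Q4

/-- Polynomial expressions in eight variables. -/
inductive Ex where
  | c (z : Int)
  | v (i : Fin 8)
  | add (a b : Ex)
  | sub (a b : Ex)
  | mul (a b : Ex)
  | pow (a : Ex) (k : Nat)

namespace Ex

/-- The polynomial of an expression. -/
noncomputable def poly : Ex → MvPolynomial (Fin 8) ℤ
  | .c z => C z
  | .v i => X i
  | .add a b => a.poly + b.poly
  | .sub a b => a.poly - b.poly
  | .mul a b => a.poly * b.poly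
  | .pow a k => a.poly ^ k

/-- A polynomial with natural coefficients above the polynomial of an expression. -/
noncomputable def majP : Ex → MvPolynomial (Fin 8) ℕ
  | .c z => C z.natAbs
  | .v i => X i
  | .add a b => a.majP + b.majP
  | .sub a b => a.majP + b.majP
  | .mul a b => a.majP * b.majP
  | .pow a k => a.majP ^ k

/-- The value of the majorant at the point with all coordinates one. -/
def maj : Ex → Nat
  | .c z => z.natAbs
  | .v _ => 1
  | .add a b => a.maj + b.maj
  | .sub a b => a.maj + b.maj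
  | .mul a b => a.maj * b.maj
  | .pow a k => a.maj ^ k

/-- The bidegree of an expression, when it is bihomogeneous by construction. -/
def deg : Ex → Option (Nat × Nat)
  | .c _ => some (0, 0)
  | .v i => if i.val < 4 then some (1, 0) else some (0, 1)
  | .add a b =>
    match a.deg, b.deg with
    | some x, some y => if x.1 = y.1 ∧ x.2 = y.2 then some x else none
    | _, _ => none
  | .sub a b =>
    match a.deg, b.deg with
    | some x, some y => if x.1 = y.1 ∧ x.2 = y.2 then some x else none
    | _, _ => none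
  | .mul a b =>
    match a.deg, b.deg with
    | some x, some y => some (x.1 + y.1, x.2 + y.2)
    | _, _ => none
  | .pow a k =>
    match a.deg with
    | some x => some (k * x.1, k * x.2)
    | none => none

/-- The value of an expression at integers. -/
def kron (w : Fin 8 → Int) : Ex → Int
  | .c z => z
  | .v i => w i
  | .add a b => a.kron w + b.kron w
  | .sub a b => a.kron w - b.kron w
  | .mul a b => a.kron w * b.kron w
  | .pow a k => a.kron w ^ k

/-- The value of an expression at reals. -/
noncomputable def val (r : Fin 8 → ℝ) : Ex → ℝ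
  | .c z => z
  | .v i => r i
  | .add a b => a.val r + b.val r
  | .sub a b => a.val r - b.val r
  | .mul a b => a.val r * b.val r
  | .pow a k => a.val r ^ k

lemma val_eq (r : Fin 8 → ℝ) : ∀ e : Ex, e.val r = eval₂ (Int.castRingHom ℝ) r e.poly
  | .c z => by simp only [val, poly, eval₂_C]; simp
  | .v i => by simp [val, poly]
  | .add a b => by simp [val, poly, val_eq r a, val_eq r b, eval₂_add]
  | .sub a b => by simp [val, poly, val_eq r a, val_eq r b, eval₂_sub]
  | .mul a b => by simp [val, poly, val_eq r a, val_eq r b, eval₂_mul]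
  | .pow a k => by simp [val, poly, val_eq r a, eval₂_pow]

lemma kron_eq (w : Fin 8 → ℤ) : ∀ e : Ex, e.kron w = eval₂ (RingHom.id ℤ) w e.poly
  | .c z => by simp only [kron, poly, eval₂_C]; simp
  | .v i => by simp [kron, poly]
  | .add a b => by simp [kron, poly, kron_eq w a, kron_eq w b, eval₂_add]
  | .sub a b => by simp [kron, poly, kron_eq w a, kron_eq w b, eval₂_sub]
  | .mul a b => by simp [kron, poly, kron_eq w a, kron_eq w b, eval₂_mul]
  | .pow a k => by simp [kron, poly, kron_eq w a, eval₂_pow]

/-! ### The majorant -/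

/-- `q` majorizes `p` coefficientwise. -/
def Maj (p : MvPolynomial (Fin 8) ℤ) (q : MvPolynomial (Fin 8) ℕ) : Prop :=
  ∀ d, |coeff d p| ≤ ((coeff d q : ℕ) : ℤ)

lemma Maj.mul {p p' : MvPolynomial (Fin 8) ℤ} {q q' : MvPolynomial (Fin 8) ℕ} (h : Maj p q)
    (h' : Maj p' q') : Maj (p * p') (q * q') := by
  intro d
  rw [coeff_mul, coeff_mul]
  push_cast
  refine (Finset.abs_sum_le_sum_abs _ _).trans (Finset.sum_le_sum fun x _ => ?_)
  rw [abs_mul]
  exact mul_le_mul (h _) (h' _) (abs_nonneg _) (by positivity)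

lemma maj_one : Maj (1 : MvPolynomial (Fin 8) ℤ) (1 : MvPolynomial (Fin 8) ℕ) := by
  intro d
  rw [coeff_one, coeff_one]
  split_ifs <;> simp

lemma Maj.pow {p : MvPolynomial (Fin 8) ℤ} {q : MvPolynomial (Fin 8) ℕ} (h : Maj p q) (k : ℕ) :
    Maj (p ^ k) (q ^ k) := by
  induction k with
  | zero => simpa using maj_one
  | succ k ih =>
    rw [pow_succ, pow_succ]
    exact ih.mul h

lemma maj_poly : ∀ e : Ex, Maj e.poly e.majP
  | .c z => by
    intro d
    simp only [poly, majP, coeff_C]
    split_ifs <;> simp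
  | .v i => by
    intro d
    simp only [poly, majP, coeff_X]
    split_ifs <;> simp
  | .add a b => by
    intro d
    simp only [poly, majP, coeff_add]
    push_cast
    exact (abs_add_le _ _).trans (add_le_add (maj_poly a d) (maj_poly b d))
  | .sub a b => by
    intro d
    simp only [poly, majP, coeff_sub, coeff_add]
    push_cast
    exact (abs_sub _ _).trans (add_le_add (maj_poly a d) (maj_poly b d))
  | .mul a b => (maj_poly a).mul (maj_poly b)
  | .pow a k => (maj_poly a).pow k

lemma maj_eval : ∀ e : Ex, eval₂ (RingHom.id ℕ) (fun _ => 1) e.majP = e.maj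
  | .c z => by simp [majP, maj]
  | .v i => by simp [majP, maj]
  | .add a b => by simp [majP, maj, maj_eval a, maj_eval b, eval₂_add]
  | .sub a b => by simp [majP, maj, maj_eval a, maj_eval b, eval₂_add]
  | .mul a b => by simp [majP, maj, maj_eval a, maj_eval b, eval₂_mul]
  | .pow a k => by simp [majP, maj, maj_eval a, eval₂_pow]

lemma coeff_le_maj (e : Ex) (d : Fin 8 →₀ ℕ) : coeff d e.majP ≤ e.maj := by
  rw [← maj_eval e, eval₂_eq']
  simp only [RingHom.id_apply, one_pow, Finset.prod_const_one, mul_one]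
  by_cases h : d ∈ e.majP.support
  · exact Finset.single_le_sum (f := fun d => coeff d e.majP) (fun _ _ => Nat.zero_le _) h
  · rw [notMem_support_iff.1 h]
    exact Nat.zero_le _

lemma abs_coeff_le (e : Ex) (d : Fin 8 →₀ ℕ) : |coeff d e.poly| ≤ (e.maj : ℤ) :=
  (maj_poly e d).trans (by exact_mod_cast coeff_le_maj e d)

/-! ### Bihomogeneity -/

/-- The polynomial is bihomogeneous. -/
def BiH (p : MvPolynomial (Fin 8) ℤ) (n m : ℕ) : Prop :=
  ∀ d, coeff d p ≠ 0 → d 0 + d 1 + d 2 + d 3 = n ∧ d 4 + d 5 + d 6 + d 7 = m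

lemma BiH.mul {p q : MvPolynomial (Fin 8) ℤ} {n m n' m' : ℕ} (h : BiH p n m) (h' : BiH q n' m') :
    BiH (p * q) (n + n') (m + m') := by
  intro d hd
  rw [coeff_mul] at hd
  obtain ⟨x, hx, hne⟩ := Finset.exists_ne_zero_of_sum_ne_zero hd
  have hx' := Finset.HasAntidiagonal.mem_antidiagonal.1 hx
  have h1 := h x.1 (left_ne_zero_of_mul hne)
  have h2 := h' x.2 (right_ne_zero_of_mul hne)
  subst hx'
  simp only [Finsupp.add_apply]
  omega

lemma biH_one : BiH (1 : MvPolynomial (Fin 8) ℤ) 0 0 := by
  intro d hd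
  rw [coeff_one] at hd
  split_ifs at hd with h
  · subst h; simp
  · exact absurd rfl hd

lemma BiH.pow {p : MvPolynomial (Fin 8) ℤ} {n m : ℕ} (h : BiH p n m) (k : ℕ) :
    BiH (p ^ k) (k * n) (k * m) := by
  induction k with
  | zero => simpa using biH_one
  | succ k ih =>
    rw [pow_succ]
    have e1 : (k + 1) * n = k * n + n := by ring
    have e2 : (k + 1) * m = k * m + m := by ring
    rw [e1, e2]
    exact ih.mul h

lemma deg_biH : ∀ (e : Ex) (n m : ℕ), e.deg = some (n, m) → BiH e.poly n m
  | .c z, n, m, h => by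
    simp only [deg, Option.some.injEq, Prod.mk.injEq] at h
    obtain ⟨rfl, rfl⟩ := h
    intro d hd
    simp only [poly, coeff_C] at hd
    split_ifs at hd with h0
    · subst h0; simp
    · exact absurd rfl hd
  | .v i, n, m, h => by
    intro d hd
    simp only [poly, coeff_X] at hd
    split_ifs at hd with h0
    · subst h0
      simp only [deg] at h
      fin_cases i <;> simp at h <;> obtain ⟨rfl, rfl⟩ := h <;> simp [Finsupp.single_apply]
    · exact absurd rfl hd
  | .add a b, n, m, h => by
    simp only [deg] at h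
    split at h
    · rename_i x y ha hb
      split_ifs at h with hc
      simp only [Option.some.injEq] at h
      subst h
      intro d hd
      simp only [poly, coeff_add] at hd
      by_cases h0 : coeff d a.poly = 0
      · have : coeff d b.poly ≠ 0 := by
          intro h1; apply hd; rw [h0, h1]; simp
        have h5 := deg_biH b y.1 y.2 hb d this
        have h6 : n = y.1 := hc.1
        have h7 : m = y.2 := hc.2
        rw [h6, h7]
        exact h5
      · exact deg_biH a n m ha d h0
    · simp at h
  | .sub a b, n, m, h => by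
    simp only [deg] at h
    split at h
    · rename_i x y ha hb
      split_ifs at h with hc
      simp only [Option.some.injEq] at h
      subst h
      intro d hd
      simp only [poly, coeff_sub] at hd
      by_cases h0 : coeff d a.poly = 0
      · have : coeff d b.poly ≠ 0 := by
          intro h1; apply hd; rw [h0, h1]; simp
        have h5 := deg_biH b y.1 y.2 hb d this
        have h6 : n = y.1 := hc.1
        have h7 : m = y.2 := hc.2
        rw [h6, h7]
        exact h5
      · exact deg_biH a n m ha d h0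
    · simp at h
  | .mul a b, n, m, h => by
    simp only [deg] at h
    split at h
    · rename_i x y ha hb
      simp only [Option.some.injEq, Prod.mk.injEq] at h
      obtain ⟨rfl, rfl⟩ := h
      exact (deg_biH a x.1 x.2 ha).mul (deg_biH b y.1 y.2 hb)
    · simp at h
  | .pow a k, n, m, h => by
    simp only [deg] at h
    split at h
    · rename_i x ha
      simp only [Option.some.injEq, Prod.mk.injEq] at h
      obtain ⟨rfl, rfl⟩ := h
      exact (deg_biH a x.1 x.2 ha).pow k
    · simp at h

end Ex

/-! ### Digits -/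

/-- The bits `W - 1` of the `K` lowest digits in base `2 ^ W`. -/
def maskR (W : ℕ) : ℕ → ℕ
  | 0 => 0
  | K + 1 => 2 ^ (W - 1) + 2 ^ W * maskR W K

lemma land_mask_step {W : ℕ} (hW : 0 < W) {N M : ℕ} (h : N &&& (2 ^ (W - 1) + 2 ^ W * M) = 0) :
    N % 2 ^ W < 2 ^ (W - 1) ∧ (N / 2 ^ W) &&& M = 0 := by
  have hlt : 2 ^ (W - 1) < 2 ^ W := Nat.pow_lt_pow_right (by norm_num) (by omega)
  have hbit : ∀ j, (2 ^ (W - 1) + 2 ^ W * M).testBit j =
      if j < W then decide (j = W - 1) else M.testBit (j - W) := by
    intro j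
    rw [add_comm, Nat.testBit_two_pow_mul_add _ hlt]
    split_ifs with hj
    · rw [Nat.testBit_two_pow]
      by_cases hc : j = W - 1
      · simp [hc]
      · have : W - 1 ≠ j := fun e => hc e.symm
        simp [hc, this]
    · rfl
  have hz : ∀ j, (N.testBit j && (2 ^ (W - 1) + 2 ^ W * M).testBit j) = false := by
    intro j
    rw [← Nat.testBit_land, h]
    simp
  constructor
  · apply Nat.lt_pow_two_of_testBit
    intro j hj
    rw [Nat.testBit_mod_two_pow]
    by_cases hjW : j < W
    · have hj' : j = W - 1 := by omega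
      have := hz j
      rw [hbit, if_pos hjW] at this
      simp only [hj', decide_true, Bool.and_true] at this
      simp [hj', this]
    · simp [hjW]
  · apply Nat.eq_of_testBit_eq
    intro j
    rw [Nat.testBit_land, Nat.testBit_div_two_pow]
    have := hz (W + j)
    rw [hbit, if_neg (by omega)] at this
    simp only [Nat.add_sub_cancel_left] at this
    rw [Nat.add_comm j W]
    simpa using this

/-- Digits are unique, so that small nonnegative digits are the given ones. -/
theorem digits_nonneg {W : ℕ} (hW : 0 < W) :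
    ∀ (K : ℕ) (c : ℕ → ℤ) (N : ℕ), (N : ℤ) = ∑ j ∈ range K, c j * (2 : ℤ) ^ (W * j) →
      (∀ j, |c j| < (2 : ℤ) ^ (W - 1)) → N &&& maskR W K = 0 → ∀ j, j < K → 0 ≤ c j := by
  intro K
  induction K with
  | zero => intro c N _ _ _ j hj; omega
  | succ K ih =>
    intro c N hN hc hm j hj
    obtain ⟨h1, h2⟩ := land_mask_step hW hm
    rw [Finset.sum_range_succ'] at hN
    simp only [Nat.mul_zero, pow_zero, mul_one] at hN
    set R : ℤ := ∑ k ∈ range K, c (k + 1) * (2 : ℤ) ^ (W * k) with hR
    have hB : (2 : ℤ) ^ W = 2 * 2 ^ (W - 1) := by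
      rw [← pow_succ']
      congr 1
      omega
    have hNeq : (N : ℤ) = c 0 + 2 ^ W * R := by
      rw [hN, hR, Finset.mul_sum, add_comm]
      congr 1
      apply Finset.sum_congr rfl
      intro k _
      rw [Nat.mul_add, pow_add, mul_one]
      ring
    have hmod : ((N % 2 ^ W : ℕ) : ℤ) = (N : ℤ) - 2 ^ W * ((N / 2 ^ W : ℕ) : ℤ) := by
      have := Nat.mod_add_div N (2 ^ W)
      have h3 : (N : ℤ) = ((N % 2 ^ W : ℕ) : ℤ) + ((2 ^ W : ℕ) : ℤ) * ((N / 2 ^ W : ℕ) : ℤ) := by
        exact_mod_cast this.symm
      push_cast at h3 ⊢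
      linarith
    have h1' : ((N % 2 ^ W : ℕ) : ℤ) < 2 ^ (W - 1) := by exact_mod_cast h1
    have h0' : (0 : ℤ) ≤ ((N % 2 ^ W : ℕ) : ℤ) := by positivity
    have hc0 := abs_lt.1 (hc 0)
    -- the lowest digit
    have hq : R = ((N / 2 ^ W : ℕ) : ℤ) := by
      have hP : (0 : ℤ) < 2 ^ (W - 1) := by positivity
      have key : (2 : ℤ) ^ W * (R - ((N / 2 ^ W : ℕ) : ℤ)) = ((N % 2 ^ W : ℕ) : ℤ) - c 0 := by
        rw [hmod, hNeq]
        ring
      by_contra hne
      have hne' : R - ((N / 2 ^ W : ℕ) : ℤ) ≠ 0 := sub_ne_zero.2 hne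
      rcases lt_or_gt_of_ne hne' with hl | hl
      · have h4 : R - ((N / 2 ^ W : ℕ) : ℤ) ≤ -1 := by omega
        have h5 : (2 : ℤ) ^ W * (R - ((N / 2 ^ W : ℕ) : ℤ)) ≤ 2 ^ W * (-1) :=
          mul_le_mul_of_nonneg_left h4 (by positivity)
        rw [key, hB] at *
        linarith [hc0.2]
      · have h4 : 1 ≤ R - ((N / 2 ^ W : ℕ) : ℤ) := by omega
        have h5 : (2 : ℤ) ^ W * 1 ≤ 2 ^ W * (R - ((N / 2 ^ W : ℕ) : ℤ)) :=
          mul_le_mul_of_nonneg_left h4 (by positivity)
        rw [key, hB] at *
        linarith [hc0.1]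
    have hc00 : c 0 = ((N % 2 ^ W : ℕ) : ℤ) := by
      rw [hmod, hNeq, hq]
      ring
    cases j with
    | zero =>
      rw [hc00]
      exact h0'
    | succ j =>
      exact ih (fun k => c (k + 1)) (N / 2 ^ W) hq.symm (fun k => hc _) h2 j (by omega)

lemma maskR_eq (W : ℕ) (hW : 0 < W) (K : ℕ) :
    maskR W K = 2 ^ (W - 1) * (((2 ^ W) ^ K - 1) / (2 ^ W - 1)) := by
  have h2 : 2 ≤ 2 ^ W := by
    calc 2 = 2 ^ 1 := by norm_num
      _ ≤ 2 ^ W := Nat.pow_le_pow_right (by norm_num) hW
  rw [← Nat.geomSum_eq h2 K]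
  induction K with
  | zero => simp [maskR]
  | succ K ih =>
    rw [maskR, ih, Finset.sum_range_succ', mul_add, pow_zero, mul_one, Finset.mul_sum, Finset.mul_sum,
      Finset.mul_sum, add_comm]
    congr 1
    apply Finset.sum_congr rfl
    intro k _
    ring

/-! ### The check -/

/-- The second exponent of the packing of a simplex of degree `n`. -/
def bE (n : ℕ) : ℕ := if n = 8 then 37 else n + 1

/-- The third exponent of the packing of a simplex of degree `n`. -/
def pE (n : ℕ) : ℕ := if n = 8 then 45 else n * (n + 1) + 1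

/-- The number of digits used by one group of degree `n`. -/
def tE (n : ℕ) : ℕ := n * pE n + 1

/-- The exponents of the Kronecker substitution. -/
def kExp (n m : ℕ) : Fin 8 → ℕ :=
  ![0, 1, bE n, pE n, 0, tE n, tE n * bE m, tE n * pE m]

/-- The point of the Kronecker substitution. -/
def kPt (W n m : ℕ) : Fin 8 → ℤ := fun i => (((1 : ℕ) <<< (W * kExp n m i) : ℕ) : ℤ)

/-- The position of a monomial. -/
def idx (n m : ℕ) (d : Fin 8 →₀ ℕ) : ℕ := ∑ i, kExp n m i * d i

lemma idx_eq (n m : ℕ) (d : Fin 8 →₀ ℕ) :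
    idx n m d = (d 1 + bE n * d 2 + pE n * d 3) + tE n * (d 5 + bE m * d 6 + pE m * d 7) := by
  simp only [idx, Fin.sum_univ_eight, kExp]
  simp
  ring

/-- Three digits in the packing of a simplex: the value is small. -/
lemma pack_le {n a b c : ℕ} (h : a + b + c ≤ n) : a + bE n * b + pE n * c ≤ n * pE n := by
  by_cases h8 : n = 8
  · subst h8
    simp only [bE, pE, if_true]
    omega
  simp only [bE, pE, if_neg h8]
  have h1 : n + 1 ≤ n * (n + 1) + 1 := by
    nlinarith [Nat.zero_le n]
  have h2 : 1 ≤ n * (n + 1) + 1 := by omega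
  calc a + (n + 1) * b + (n * (n + 1) + 1) * c ≤ (n * (n + 1) + 1) * a + (n * (n + 1) + 1) * b + (n * (n + 1) + 1) * c := by
        have e1 : a ≤ (n * (n + 1) + 1) * a := Nat.le_mul_of_pos_left _ (by omega)
        have e2 : (n + 1) * b ≤ (n * (n + 1) + 1) * b := Nat.mul_le_mul_right _ h1
        omega
    _ = (n * (n + 1) + 1) * (a + b + c) := by ring
    _ ≤ (n * (n + 1) + 1) * n := Nat.mul_le_mul_left _ h
    _ = n * (n * (n + 1) + 1) := by ring

/-- The columns of the packing of degree eight are disjoint. -/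
lemma sep8 : ∀ x y x' y' : Fin 9, x.val + y.val ≤ 8 → x'.val + y'.val ≤ 8 →
    37 * x.val + 45 * y.val ≤ 37 * x'.val + 45 * y'.val →
    (x = x' ∧ y = y') ∨ 37 * x.val + 45 * y.val + (8 - x.val - y.val) < 37 * x'.val + 45 * y'.val := by
  decide +kernel

/-- Three digits in the packing of a simplex determine the value. -/
lemma pack_inj {n a b c a' b' c' : ℕ} (h : a + b + c ≤ n) (h' : a' + b' + c' ≤ n)
    (e : a + bE n * b + pE n * c = a' + bE n * b' + pE n * c') :
    a = a' ∧ b = b' ∧ c = c' := by
  by_cases h8 : n = 8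
  · subst h8
    simp only [bE, pE, if_true] at e
    have hsep : ∀ x y x' y' : ℕ, x + y ≤ 8 → x' + y' ≤ 8 → 37 * x + 45 * y ≤ 37 * x' + 45 * y' →
        (x = x' ∧ y = y') ∨ 37 * x + 45 * y + (8 - x - y) < 37 * x' + 45 * y' := by
      intro x y x' y' h1 h2 h3
      have := sep8 ⟨x, by omega⟩ ⟨y, by omega⟩ ⟨x', by omega⟩ ⟨y', by omega⟩ h1 h2 h3
      simpa [Fin.ext_iff] using this
    rcases le_total (37 * b + 45 * c) (37 * b' + 45 * c') with hl | hl
    · rcases hsep b c b' c' (by omega) (by omega) hl with ⟨h1, h2⟩ | h1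
      · subst h1 h2
        exact ⟨by omega, rfl, rfl⟩
      · omega
    · rcases hsep b' c' b c (by omega) (by omega) hl with ⟨h1, h2⟩ | h1
      · subst h1 h2
        exact ⟨by omega, rfl, rfl⟩
      · omega
  simp only [bE, pE, if_neg h8] at e
  have key : ∀ {x y z x' y' z' : ℕ}, x + y + z ≤ n → x' + y' + z' ≤ n → z < z' →
      x + (n + 1) * y + (n * (n + 1) + 1) * z ≠ x' + (n + 1) * y' + (n * (n + 1) + 1) * z' := by
    intro x y z x' y' z' hx _ hz ee
    have h3 : x + (n + 1) * y ≤ n * (n + 1) := by
      have h4 : y ≤ n := by omega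
      have h5 : x + y ≤ n := by omega
      calc x + (n + 1) * y ≤ (n + 1) * x + (n + 1) * y := by
            have : x ≤ (n + 1) * x := Nat.le_mul_of_pos_left _ (by omega)
            omega
        _ = (n + 1) * (x + y) := by ring
        _ ≤ (n + 1) * n := Nat.mul_le_mul_left _ h5
        _ = n * (n + 1) := by ring
    have h6 : (n * (n + 1) + 1) * (z + 1) ≤ (n * (n + 1) + 1) * z' := Nat.mul_le_mul_left _ hz
    have h7 : (n * (n + 1) + 1) * (z + 1) = (n * (n + 1) + 1) * z + (n * (n + 1) + 1) := by
      ring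
    omega
  have hc : c = c' := by
    rcases lt_trichotomy c c' with hl | hl | hl
    · exact absurd e (key h h' hl)
    · exact hl
    · exact absurd e.symm (key h' h hl)
  subst hc
  have e2 : a + (n + 1) * b = a' + (n + 1) * b' := by omega
  have ha : a < n + 1 := by omega
  have ha' : a' < n + 1 := by omega
  have m1 : (a + (n + 1) * b) % (n + 1) = a := by
    rw [Nat.add_mul_mod_self_left, Nat.mod_eq_of_lt ha]
  have m2 : (a' + (n + 1) * b') % (n + 1) = a' := by
    rw [Nat.add_mul_mod_self_left, Nat.mod_eq_of_lt ha']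
  have e3 : a = a' := by rw [← m1, e2, m2]
  subst e3
  exact ⟨rfl, Nat.eq_of_mul_eq_mul_left (by omega : 0 < n + 1) (by omega), rfl⟩

lemma idx_inj {n m : ℕ} {d e : Fin 8 →₀ ℕ} (hd : d 0 + d 1 + d 2 + d 3 = n ∧ d 4 + d 5 + d 6 + d 7 = m)
    (he : e 0 + e 1 + e 2 + e 3 = n ∧ e 4 + e 5 + e 6 + e 7 = m) (h : idx n m d = idx n m e) :
    d = e := by
  rw [idx_eq, idx_eq] at h
  obtain ⟨h1, h2⟩ := hd
  obtain ⟨h3, h4⟩ := he
  have l1 := pack_le (n := n) (a := d 1) (b := d 2) (c := d 3) (by omega)
  have l2 := pack_le (n := n) (a := e 1) (b := e 2) (c := e 3) (by omega)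
  set A := d 1 + bE n * d 2 + pE n * d 3 with hA
  set A' := e 1 + bE n * e 2 + pE n * e 3 with hA'
  set B := d 5 + bE m * d 6 + pE m * d 7 with hB
  set B' := e 5 + bE m * e 6 + pE m * e 7 with hB'
  have hT : 0 < tE n := by unfold tE; omega
  have m1 : (A + tE n * B) % tE n = A := by
    rw [Nat.add_mul_mod_self_left, Nat.mod_eq_of_lt (by unfold tE; omega)]
  have m2 : (A' + tE n * B') % tE n = A' := by
    rw [Nat.add_mul_mod_self_left, Nat.mod_eq_of_lt (by unfold tE; omega)]
  have eA : A = A' := by rw [← m1, h, m2]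
  have eB : B = B' := by
    apply Nat.eq_of_mul_eq_mul_left hT
    omega
  obtain ⟨a1, a2, a3⟩ := pack_inj (n := n) (a := d 1) (b := d 2) (c := d 3) (a' := e 1) (b' := e 2)
    (c' := e 3) (by omega) (by omega) eA
  obtain ⟨b1, b2, b3⟩ := pack_inj (n := m) (a := d 5) (b := d 6) (c := d 7) (a' := e 5) (b' := e 6)
    (c' := e 7) (by omega) (by omega) eB
  have d0 : d 0 = e 0 := by omega
  have d4 : d 4 = e 4 := by omega
  ext i
  fin_cases i
  · exact d0
  · exact a1
  · exact a2
  · exact a3
  · exact d4
  · exact b1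
  · exact b2
  · exact b3

lemma idx_lt (n m : ℕ) (d : Fin 8 →₀ ℕ) (a1 : d 0 + d 1 + d 2 + d 3 = n)
    (a2 : d 4 + d 5 + d 6 + d 7 = m) : idx n m d < tE n * tE m := by
  rw [idx_eq]
  have l1 := pack_le (n := n) (a := d 1) (b := d 2) (c := d 3) (by omega)
  have l2 := pack_le (n := m) (a := d 5) (b := d 6) (c := d 7) (by omega)
  generalize d 1 + bE n * d 2 + pE n * d 3 = A at *
  generalize d 5 + bE m * d 6 + pE m * d 7 = B at *
  have h3 : B + 1 ≤ tE m := by unfold tE; omega
  have h4 : A < tE n := by unfold tE; omega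
  calc A + tE n * B < tE n + tE n * B := by omega
    _ = tE n * (B + 1) := by ring
    _ ≤ tE n * tE m := Nat.mul_le_mul_left _ h3

lemma kPt_prod (W n m : ℕ) (d : Fin 8 →₀ ℕ) :
    ∏ i, kPt W n m i ^ d i = (2 : ℤ) ^ (W * idx n m d) := by
  simp only [idx, kPt, Nat.one_shiftLeft]
  rw [Finset.mul_sum, ← Finset.prod_pow_eq_pow_sum]
  apply Finset.prod_congr rfl
  intro i _
  push_cast
  rw [← pow_mul]
  congr 1
  ring

/-- The top power, computed without large powers. -/
def topP (W n m : ℕ) : ℕ := ((1 : ℕ) <<< (W * tE n)) ^ tE m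

/-- The mask of all digits. -/
def maskC (W n m : ℕ) : ℕ := ((1 : ℕ) <<< (W - 1)) * ((topP W n m - 1) / ((1 : ℕ) <<< W - 1))

lemma maskC_eq (W n m : ℕ) (hW : 0 < W) : maskC W n m = maskR W (tE n * tE m) := by
  rw [maskR_eq W hW]
  simp only [maskC, topP, Nat.one_shiftLeft]
  rw [← pow_mul, ← pow_mul]
  congr 4
  ring

/-! ### Sign and magnitude -/

/-- The integer of a sign and a magnitude. -/
def smI (a : Bool × ℕ) : ℤ := if a.1 then -(a.2 : ℤ) else (a.2 : ℤ)

/-- The sum in sign and magnitude. -/
def smAdd : Bool × ℕ → Bool × ℕ → Bool × ℕ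
  | (false, x), (false, y) => (false, Nat.add x y)
  | (true, x), (true, y) => (true, Nat.add x y)
  | (false, x), (true, y) =>
    match Nat.ble y x with
    | true => (false, Nat.sub x y)
    | false => (true, Nat.sub y x)
  | (true, x), (false, y) =>
    match Nat.ble y x with
    | true => (true, Nat.sub x y)
    | false => (false, Nat.sub y x)

/-- The difference in sign and magnitude. -/
def smSub (a b : Bool × ℕ) : Bool × ℕ :=
  match b with
  | (t, y) => smAdd a (!t, y)

/-- The product in sign and magnitude. -/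
def smMul (a b : Bool × ℕ) : Bool × ℕ :=
  match a, b with
  | (s, x), (t, y) => (Bool.xor s t, Nat.mul x y)

/-- The power in sign and magnitude. -/
def smPow (a : Bool × ℕ) (k : ℕ) : Bool × ℕ :=
  match a with
  | (s, x) => (s && Nat.beq (Nat.mod k 2) 1, Nat.pow x k)

/-- A constant in sign and magnitude. -/
def smC : ℤ → Bool × ℕ
  | .ofNat n => (false, n)
  | .negSucc n => (true, Nat.succ n)

lemma smI_add (a b : Bool × ℕ) : smI (smAdd a b) = smI a + smI b := by
  obtain ⟨s, x⟩ := a
  obtain ⟨t, y⟩ := b
  cases s <;> cases t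
  · simp [smAdd, smI, Nat.add_eq]
  · by_cases h : y ≤ x
    · have hb : Nat.ble y x = true := by rw [Nat.ble_eq]; exact h
      simp only [smAdd, hb, smI, Nat.sub_eq, Bool.false_eq_true, if_false, if_true]
      push_cast [Nat.cast_sub h]
      ring
    · have hb : Nat.ble y x = false := by
        rw [← Bool.not_eq_true, Nat.ble_eq]
        exact h
      have h' : x ≤ y := by omega
      simp only [smAdd, hb, smI, Nat.sub_eq, Bool.false_eq_true, if_false, if_true]
      push_cast [Nat.cast_sub h']
      ring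
  · by_cases h : y ≤ x
    · have hb : Nat.ble y x = true := by rw [Nat.ble_eq]; exact h
      simp only [smAdd, hb, smI, Nat.sub_eq, Bool.false_eq_true, if_false, if_true]
      push_cast [Nat.cast_sub h]
      ring
    · have hb : Nat.ble y x = false := by
        rw [← Bool.not_eq_true, Nat.ble_eq]
        exact h
      have h' : x ≤ y := by omega
      simp only [smAdd, hb, smI, Nat.sub_eq, Bool.false_eq_true, if_false, if_true]
      push_cast [Nat.cast_sub h']
      ring
  · simp only [smAdd, smI, Nat.add_eq, if_true]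
    push_cast
    ring

lemma smI_sub (a b : Bool × ℕ) : smI (smSub a b) = smI a - smI b := by
  obtain ⟨t, y⟩ := b
  simp only [smSub, smI_add]
  cases t <;> simp [smI] <;> ring

lemma smI_mul (a b : Bool × ℕ) : smI (smMul a b) = smI a * smI b := by
  obtain ⟨s, x⟩ := a
  obtain ⟨t, y⟩ := b
  cases s <;> cases t <;> simp [smMul, smI, Nat.mul_eq]

lemma smI_pow (a : Bool × ℕ) (k : ℕ) : smI (smPow a k) = smI a ^ k := by
  obtain ⟨s, x⟩ := a
  have hm : Nat.mod k 2 = k % 2 := rfl
  cases s
  · simp [smPow, smI, Nat.pow_eq]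
  · simp only [smPow, smI, Bool.true_and, Nat.pow_eq, hm]
    by_cases hk : k % 2 = 1
    · have hodd : Odd k := Nat.odd_iff.2 hk
      have hb : Nat.beq (k % 2) 1 = true := by rw [hk]; rfl
      simp [hb, hodd.neg_pow]
    · have heven : Even k := Nat.even_iff.2 (by omega)
      have hb : Nat.beq (k % 2) 1 = false := by
        have h0 : k % 2 = 0 := by omega
        rw [h0]; rfl
      simp [hb, heven.neg_pow]

lemma smI_c (z : ℤ) : smI (smC z) = z := by
  cases z with
  | ofNat n => simp [smC, smI]
  | negSucc n => simp [smC, smI, Int.negSucc_eq]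

namespace Ex

/-- The value of an expression at naturals, in sign and magnitude. -/
def kv (w : Fin 8 → ℕ) : Ex → Bool × ℕ
  | .c z => smC z
  | .v i => (false, w i)
  | .add a b => smAdd (a.kv w) (b.kv w)
  | .sub a b => smSub (a.kv w) (b.kv w)
  | .mul a b => smMul (a.kv w) (b.kv w)
  | .pow a k => smPow (a.kv w) k

lemma kv_eq (w : Fin 8 → ℕ) : ∀ e : Ex, smI (e.kv w) = e.kron (fun i => (w i : ℤ))
  | .c z => by simp [kv, kron, smI_c]
  | .v i => by simp [kv, kron, smI]
  | .add a b => by simp [kv, kron, smI_add, kv_eq w a, kv_eq w b]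
  | .sub a b => by simp [kv, kron, smI_sub, kv_eq w a, kv_eq w b]
  | .mul a b => by simp [kv, kron, smI_mul, kv_eq w a, kv_eq w b]
  | .pow a k => by simp [kv, kron, smI_pow, kv_eq w a]

end Ex

/-- The point of the Kronecker substitution, in naturals. -/
def kPtN (W n m : ℕ) : Fin 8 → ℕ := fun i => (1 : ℕ) <<< (W * kExp n m i)

/-- The check of an expression: it is bihomogeneous and all its coefficients are nonnegative. -/
def check (W n m : ℕ) (e : Ex) : Bool :=
  (match e.deg with
    | some x => Nat.beq x.1 n && Nat.beq x.2 m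
    | none => false) &&
  Nat.blt 0 W && Nat.blt e.maj ((1 : ℕ) <<< (W - 1)) &&
  (match e.kv (kPtN W n m) with
    | (false, N) => Nat.beq (N &&& maskC W n m) 0
    | (true, _) => false)

/-- The coefficients of an expression that passes the check are nonnegative. -/
theorem check_coeff {W n m : ℕ} {e : Ex} (h : check W n m e = true) (d : Fin 8 →₀ ℕ) :
    0 ≤ coeff d e.poly := by
  simp only [check, Bool.and_eq_true] at h
  obtain ⟨⟨⟨h1, h2⟩, h3⟩, h4⟩ := h
  have hW : 0 < W := by simpa [Nat.blt_eq] using h2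
  have hL : e.maj < 2 ^ (W - 1) := by
    have := Nat.blt_eq ▸ h3
    simpa [Nat.one_shiftLeft, Nat.blt_eq] using h3
  have hdeg : e.deg = some (n, m) := by
    split at h1
    · rename_i x hx
      simp only [Bool.and_eq_true] at h1
      have e1 : x.1 = n := Nat.eq_of_beq_eq_true h1.1
      have e2 : x.2 = m := Nat.eq_of_beq_eq_true h1.2
      rw [hx, ← e1, ← e2]
    · simp at h1
  have hB := Ex.deg_biH e n m hdeg
  by_cases h0 : coeff d e.poly = 0
  · rw [h0]
  split at h4
  · rename_i N hN
    have hkron : e.kron (kPt W n m) = (N : ℤ) := by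
      have e0 := Ex.kv_eq (kPtN W n m) e
      rw [hN] at e0
      have e1 : (fun i => ((kPtN W n m i : ℕ) : ℤ)) = kPt W n m := rfl
      rw [e1] at e0
      rw [← e0]
      simp [smI]
    have hland : N &&& maskR W (tE n * tE m) = 0 := by
      rw [← maskC_eq _ _ _ hW]
      simpa using h4
    -- the digits
    classical
    set S := e.poly.support with hS
    let c : ℕ → ℤ := fun j =>
      ∑ d ∈ S.filter (fun d => idx n m d = j), coeff d e.poly
    have hcd : ∀ d ∈ S, c (idx n m d) = coeff d e.poly := by
      intro d hd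
      have : S.filter (fun d' => idx n m d' = idx n m d) = {d} := by
        ext d'
        simp only [Finset.mem_filter, Finset.mem_singleton]
        constructor
        · rintro ⟨h5, h6⟩
          exact idx_inj (hB d' (mem_support_iff.1 h5)) (hB d (mem_support_iff.1 hd)) h6
        · rintro rfl
          exact ⟨hd, rfl⟩
      simp only [c, this, Finset.sum_singleton]
    have hinj : Set.InjOn (idx n m) S := by
      intro x hx y hy hxy
      exact idx_inj (hB x (mem_support_iff.1 hx)) (hB y (mem_support_iff.1 hy)) hxy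
    set K := tE n * tE m with hK
    have hlt : ∀ d ∈ S, idx n m d < K := by
      intro d hd
      obtain ⟨a1, a2⟩ := hB d (mem_support_iff.1 hd)
      exact idx_lt n m d a1 a2
    have hval : (N : ℤ) = ∑ j ∈ range K, c j * (2 : ℤ) ^ (W * j) := by
      have e1 : (N : ℤ) = e.kron (kPt W n m) := hkron.symm
      rw [e1, Ex.kron_eq, eval₂_eq']
      simp only [RingHom.id_apply, kPt_prod]
      rw [← hS]
      have e2 : ∑ d ∈ S, coeff d e.poly * (2 : ℤ) ^ (W * idx n m d) =
          ∑ d ∈ S, c (idx n m d) * (2 : ℤ) ^ (W * idx n m d) :=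
        Finset.sum_congr rfl fun d hd => by rw [hcd d hd]
      rw [e2, ← Finset.sum_image (f := fun j => c j * (2 : ℤ) ^ (W * j)) hinj]
      apply Finset.sum_subset
      · intro j hj
        obtain ⟨d, hd, rfl⟩ := Finset.mem_image.1 hj
        exact Finset.mem_range.2 (hlt d hd)
      · intro j _ hj
        have : S.filter (fun d => idx n m d = j) = ∅ := by
          apply Finset.filter_eq_empty_iff.2
          intro d hd hdj
          exact hj (Finset.mem_image.2 ⟨d, hd, hdj⟩)
        simp only [c, this, Finset.sum_empty, zero_mul]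
    have hcb : ∀ j, |c j| < (2 : ℤ) ^ (W - 1) := by
      intro j
      by_cases hj : ∃ d ∈ S, idx n m d = j
      · obtain ⟨d, hd, rfl⟩ := hj
        rw [hcd d hd]
        have : ((e.maj : ℕ) : ℤ) < (2 : ℤ) ^ (W - 1) := by exact_mod_cast hL
        exact lt_of_le_of_lt (Ex.abs_coeff_le e d) this
      · have : S.filter (fun d => idx n m d = j) = ∅ := by
          apply Finset.filter_eq_empty_iff.2
          intro d hd hdj
          exact hj ⟨d, hd, hdj⟩
        simp only [c, this, Finset.sum_empty, abs_zero]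
        positivity
    have hd' : d ∈ S := mem_support_iff.2 h0
    rw [← hcd d hd']
    exact digits_nonneg hW K c N hval hcb hland _ (hlt d hd')
  · simp at h4

/-- An expression that passes the check is nonnegative on the nonnegative orthant. -/
theorem check_val {W n m : ℕ} {e : Ex} (h : check W n m e = true) (r : Fin 8 → ℝ) (hr : ∀ i, 0 ≤ r i) :
    0 ≤ e.val r := by
  rw [Ex.val_eq, eval₂_eq']
  refine Finset.sum_nonneg fun d _ => mul_nonneg ?_ (Finset.prod_nonneg fun i _ => pow_nonneg (hr i) _)
  simp only [eq_intCast]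
  exact_mod_cast check_coeff h d

end Vale.Agent.Lib.P154Q4
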