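import Vale.Agent.Lib.P154Q4.Form

/-!
# One pair of tetrahedra

The two inequalities of the four state scheme on one pair of tetrahedra, from two Kronecker checks.
-/

namespace Vale.Agent.Lib.P154Q4

open Ex

/-! ### One variable positivity -/

/-- The expression of a one sided polynomial bound on an interval. -/
def ivE (qs : List ℤ) (k : ℕ) (up : Bool) (a b L QD : ℤ) : Ex :=
  let P : Ex := .v 0
  let S : Ex := .v 1
  let Te : Ex := .add (.mul (.c a) P) (.mul (.c b) S)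
  let Dm : Ex := .mul (.c L) (.add P S)
  let e : Ex := .mul (hornerE qs Te Dm) (.pow (.add Dm Te) k)
  let f : Ex := .mul (.c QD) (.pow Dm (qs.length - 1 + k))
  if up then .sub e f else .sub f e

/-- The check of a one sided bound on one interval. -/
def ivOK (qs : List ℤ) (k : ℕ) (up : Bool) (a b L QD : ℤ) : Bool :=
  decide (a < b) && check (Nat.log2 (ivE qs k up a b L QD).maj + 2) (qs.length - 1 + k) 0
    (ivE qs k up a b L QD)

/-- The check of a one sided bound on consecutive intervals. -/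
def chainOK (qs : List ℤ) (k : ℕ) (up : Bool) (L QD : ℤ) : List ℤ → Bool
  | [] => true
  | [_] => true
  | a :: b :: l => ivOK qs k up a b L QD && chainOK qs k up L QD (b :: l)

lemma ivOK_spec {qs : List ℤ} {k : ℕ} {up : Bool} {a b L QD : ℤ} (hL : 0 < L)
    (h : ivOK qs k up a b L QD = true) {t : ℝ} (h1 : (a : ℝ) ≤ L * t) (h2 : L * t ≤ (b : ℝ)) :
    0 ≤ (if up then qVal qs t * (1 + t) ^ k - QD else QD - qVal qs t * (1 + t) ^ k) := by
  simp only [ivOK, Bool.and_eq_true, decide_eq_true_eq] at h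
  obtain ⟨hab, hc⟩ := h
  have hab' : (a : ℝ) < b := by exact_mod_cast hab
  have hL' : (0 : ℝ) < L := by exact_mod_cast hL
  set d : ℝ := b - a with hd
  have hd0 : 0 < d := by rw [hd]; linarith
  set p : ℝ := (b - L * t) / d with hp
  set s : ℝ := (L * t - a) / d with hs
  have hp0 : 0 ≤ p := div_nonneg (by linarith) hd0.le
  have hs0 : 0 ≤ s := div_nonneg (by linarith) hd0.le
  have hsum : p + s = 1 := by
    rw [hp, hs]
    field_simp
    rw [hd]
    ring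
  have hT : (a : ℝ) * p + b * s = L * t := by
    rw [hp, hs]
    field_simp
    rw [hd]
    ring
  let r : Fin 8 → ℝ := fun i => if i = 0 then p else if i = 1 then s else 0
  have hr : ∀ i, 0 ≤ r i := by
    intro i
    simp only [r]
    split_ifs <;> first | exact hp0 | exact hs0 | exact le_refl _
  have hr0 : r 0 = p := by simp [r]
  have hr1 : r 1 = s := by simp [r]
  have hv := check_val hc r hr
  have hTe : (Ex.add (.mul (.c a) (.v 0)) (.mul (.c b) (.v 1))).val r = (L : ℝ) * t := by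
    simp only [Ex.val, hr0, hr1, hT]
  have hDm : (Ex.mul (.c L) (.add (.v 0) (.v 1))).val r = (L : ℝ) := by
    simp only [Ex.val, hr0, hr1, hsum, mul_one]
  have hH := val_horner (R := r) hTe hDm qs
  have hq : (L : ℝ) ^ (qs.length - 1 + k) ≠ 0 := pow_ne_zero _ hL'.ne'
  have hqpos : (0 : ℝ) < (L : ℝ) ^ (qs.length - 1 + k) := pow_pos hL' _
  cases up with
  | true =>
    have e1 : (ivE qs k true a b L QD).val r = (L : ℝ) ^ (qs.length - 1 + k) *
        (qVal qs t * (1 + t) ^ k - QD) := by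
      simp only [ivE, if_true, Ex.val]
      simp only [Ex.val] at hH hTe hDm
      rw [hH, hTe, hDm]
      rw [pow_add]
      have : ((L : ℝ) + L * t) ^ k = (L : ℝ) ^ k * (1 + t) ^ k := by
        rw [← mul_pow]
        ring
      rw [this]
      push_cast
      ring
    rw [e1] at hv
    simp only [if_true]
    exact nonneg_of_mul_nonneg_right hv hqpos
  | false =>
    have e1 : (ivE qs k false a b L QD).val r = (L : ℝ) ^ (qs.length - 1 + k) *
        (QD - qVal qs t * (1 + t) ^ k) := by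
      simp only [ivE, Bool.false_eq_true, if_false, Ex.val]
      simp only [Ex.val] at hH hTe hDm
      rw [hH, hTe, hDm]
      rw [pow_add]
      have : ((L : ℝ) + L * t) ^ k = (L : ℝ) ^ k * (1 + t) ^ k := by
        rw [← mul_pow]
        ring
      rw [this]
      push_cast
      ring
    rw [e1] at hv
    simp only [Bool.false_eq_true, if_false]
    exact nonneg_of_mul_nonneg_right hv hqpos

/-- The last element. -/
def lastZ : ℤ → List ℤ → ℤ
  | x, [] => x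
  | _, y :: l => lastZ y l

lemma chainOK_spec {qs : List ℤ} {k : ℕ} {up : Bool} {L QD : ℤ} (hL : 0 < L) :
    ∀ (l : List ℤ) (x y : ℤ), chainOK qs k up L QD (x :: y :: l) = true → ∀ {t : ℝ},
      (x : ℝ) ≤ L * t → L * t ≤ (lastZ y l : ℝ) →
      0 ≤ (if up then qVal qs t * (1 + t) ^ k - QD else QD - qVal qs t * (1 + t) ^ k)
  | [], x, y, h, t, h1, h2 => by
    simp only [chainOK, Bool.and_true] at h
    exact ivOK_spec hL h h1 h2
  | z :: l, x, y, h, t, h1, h2 => by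
    rw [chainOK, Bool.and_eq_true] at h
    by_cases hy : L * t ≤ (y : ℝ)
    · exact ivOK_spec hL h.1 h1 hy
    · exact chainOK_spec hL l y z h.2 (by linarith) h2

lemma q_upper {qs : List ℤ} {k : ℕ} {L QD : ℤ} (hL : 0 < L) (hQ : 0 < QD) {x y : ℤ} {l : List ℤ}
    (h : chainOK qs k true L QD (x :: y :: l) = true) {t : ℝ} (h1 : (x : ℝ) ≤ L * t)
    (h2 : L * t ≤ (lastZ y l : ℝ)) (hN : 0 < 1 + t) :
    1 / (1 + t) ^ k ≤ qVal qs t / QD := by
  have h3 := chainOK_spec hL l x y h h1 h2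
  simp only [if_true] at h3
  have hQ' : (0 : ℝ) < QD := by exact_mod_cast hQ
  have hp : 0 < (1 + t) ^ k := pow_pos hN k
  rw [div_le_div_iff₀ hp hQ']
  linarith

lemma q_lower {qs : List ℤ} {k : ℕ} {L QD : ℤ} (hL : 0 < L) (hQ : 0 < QD) {x y : ℤ} {l : List ℤ}
    (h : chainOK qs k false L QD (x :: y :: l) = true) {t : ℝ} (h1 : (x : ℝ) ≤ L * t)
    (h2 : L * t ≤ (lastZ y l : ℝ)) (hN : 0 < 1 + t) :
    qVal qs t / QD ≤ 1 / (1 + t) ^ k := by
  have h3 := chainOK_spec hL l x y h h1 h2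
  simp only [Bool.false_eq_true, if_false] at h3
  have hQ' : (0 : ℝ) < QD := by exact_mod_cast hQ
  have hp : 0 < (1 + t) ^ k := pow_pos hN k
  rw [div_le_div_iff₀ hQ' hp]
  linarith

/-! ### Data -/

/-- A table entry: an interval with break points, in units of `1 / L`, and polynomial bounds on it,
in units of `1 / QD`. -/
structure QEnt where
  lo : ℤ
  nx : ℤ
  ms : List ℤ
  qM : List ℤ
  q1 : List ℤ
  q2 : List ℤ
  q3 : List ℤ
  q4 : List ℤ

/-- The validity of a table entry. -/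
def QEnt.ok (L QD : ℤ) (e : QEnt) : Bool :=
  decide (-L < e.lo) &&
  chainOK e.qM 1 true L QD (e.lo :: e.nx :: e.ms) &&
  chainOK e.q1 1 true L QD (e.lo :: e.nx :: e.ms) &&
  chainOK e.q2 2 false L QD (e.lo :: e.nx :: e.ms) &&
  chainOK e.q3 3 true L QD (e.lo :: e.nx :: e.ms) &&
  chainOK e.q4 4 false L QD (e.lo :: e.nx :: e.ms)

/-- A polynomial in three moments, as a list of exponents and coefficients. -/
abbrev P3 := List (ℕ × ℕ × ℕ × ℤ)

/-- The data shared by all pairs of tetrahedra. -/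
structure Glob where
  n : ℕ
  K : ℕ
  L : ℤ
  QD : ℤ
  C0 : ℤ
  C3 : ℤ
  C4 : ℤ
  C5 : ℤ
  CM : ℤ
  CI : ℤ
  kM1 : ℤ
  kM2 : ℤ
  kI1 : ℤ
  kI2 : ℤ
  pM : List (P3 × P3)
  pI : List (P3 × P3)
  tab : List QEnt

/-- The monomials of a polynomial fit the degree. -/
def p3OK (n K : ℕ) (P : P3) : Bool :=
  P.all fun m => decide (2 * m.1 + 3 * m.2.1 + 4 * m.2.2.1 ≤ n) && decide (m.1 + m.2.1 + m.2.2.1 ≤ K)

/-- The validity of the shared data. -/
def Glob.ok (g : Glob) : Bool :=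
  decide (0 < g.L) && decide (0 < g.QD) && decide (0 < g.C0) && decide (g.C3 ≤ 0) && decide (g.C4 ≤ 0) &&
  decide (0 ≤ g.C5) && decide (0 < g.CM) && decide (0 < g.CI) && decide (0 < g.kM1) && decide (0 < g.kM2) &&
  decide (0 < g.kI1) && decide (0 < g.kI2) &&
  decide (g.kM1 * 4 ^ (2 * g.K) * g.CM = g.kM2 * 4 ^ (g.n + 1) * 24 * g.QD) &&
  decide (g.kI1 * 4 ^ (2 * g.K) * g.CI = g.kI2 * 16 * 4 ^ g.n * 24 * g.C0 * g.QD) &&
  g.pM.all (fun pr => p3OK g.n g.K pr.1 && p3OK g.n g.K pr.2) &&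
  g.pI.all (fun pr => p3OK g.n g.K pr.1 && p3OK g.n g.K pr.2)

/-- The validity of the table. -/
def Glob.tabOK (g : Glob) : Bool := g.tab.all (QEnt.ok g.L g.QD)

/-- One pair of tetrahedra. -/
structure Leaf where
  ta : Tet
  tb : Tet
  ents : List ℕ

/-- The permutations, as lists. -/
def permL : List (List ℕ) :=
  [[0,1,2,3],[0,1,3,2],[0,2,1,3],[0,2,3,1],[0,3,1,2],[0,3,2,1],[1,0,2,3],[1,0,3,2],[1,2,0,3],[1,2,3,0],
   [1,3,0,2],[1,3,2,0],[2,0,1,3],[2,0,3,1],[2,1,0,3],[2,1,3,0],[2,3,0,1],[2,3,1,0],[3,0,1,2],[3,0,2,1],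
   [3,1,0,2],[3,1,2,0],[3,2,0,1],[3,2,1,0]]

/-- The permutation with a given index. -/
def permOf (k : ℕ) (i : Fin 4) : Fin 4 := Fin.ofNat 4 ((permL.getD k []).getD i.val 0)

lemma permOf_bij : ∀ k ∈ Finset.range 24, Function.Bijective (permOf k) := by
  decide

/-- The table entry of a permutation. -/
def entE (g : Glob) (l : Leaf) (k : ℕ) : QEnt :=
  g.tab.getD (l.ents.getD k 0) ⟨0, 1, [], [], [], [], [], []⟩

/-- Sum of the expressions with index below `n`. -/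
def sumR : ℕ → (ℕ → Ex) → Ex
  | 0, _ => .c 0
  | 1, f => f 0
  | n + 2, f => .add (sumR (n + 1) f) (f (n + 1))

lemma val_sumR (r : Fin 8 → ℝ) (f : ℕ → Ex) : ∀ n, (sumR n f).val r = ∑ k ∈ Finset.range n, (f k).val r
  | 0 => by simp [sumR, Ex.val]
  | 1 => by simp [sumR]
  | n + 2 => by
    rw [Finset.sum_range_succ, ← val_sumR r f (n + 1)]
    simp [sumR, Ex.val]

/-! ### The right sides -/

/-- A monomial in moments, homogeneous. -/
def monoE (Ds Rh Ta Ka : Ex) (n K : ℕ) (m : ℕ × ℕ × ℕ × ℤ) : Ex :=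
  .mul (.mul (.mul (.mul (.c (m.2.2.2 * 4 ^ (K - (m.1 + m.2.1 + m.2.2.1))))
    (.pow Ds (n - (2 * m.1 + 3 * m.2.1 + 4 * m.2.2.1)))) (.pow Rh m.1)) (.pow Ta m.2.1)) (.pow Ka m.2.2.1)

/-- A polynomial in moments, homogeneous. -/
def polyE (Ds Rh Ta Ka : Ex) (n K : ℕ) (P : P3) : Ex := sumL (P.map (monoE Ds Rh Ta Ka n K))

/-- The value of a polynomial in moments. -/
noncomputable def p3V (P : P3) (a b c : ℝ) : ℝ :=
  (P.map fun m => (m.2.2.2 : ℝ) * a ^ m.1 * b ^ m.2.1 * c ^ m.2.2.1).sum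

/-- The moment of order two. -/
noncomputable def rhoU (u : Fin 4 → ℝ) : ℝ := (∑ i, u i ^ 2) / 4

/-- The moment of order three. -/
noncomputable def tauU (u : Fin 4 → ℝ) : ℝ := (∑ i, u i ^ 3) / 4

/-- The moment of order four. -/
noncomputable def kapU (u : Fin 4 → ℝ) : ℝ := (∑ i, u i ^ 4) / 4

/-- A weighted moment of order four. -/
noncomputable def b5U (u : Fin 4 → ℝ) : ℝ := (∑ i, u i ^ 4 * (1 + u i)) / 4

/-- The moments of the first side as expressions. -/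
def rhoA (T : Tet) : Ex := sum4 fun i => .pow (linA T i) 2
/-- The moments of the first side as expressions. -/
def tauA (T : Tet) : Ex := sum4 fun i => .pow (linA T i) 3
/-- The moments of the first side as expressions. -/
def kapA (T : Tet) : Ex := sum4 fun i => .pow (linA T i) 4
/-- The moments of the second side as expressions. -/
def rhoB (T : Tet) : Ex := sum4 fun i => .pow (linB T i) 2
/-- The moments of the second side as expressions. -/
def tauB (T : Tet) : Ex := sum4 fun i => .pow (linB T i) 3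
/-- The moments of the second side as expressions. -/
def kapB (T : Tet) : Ex := sum4 fun i => .pow (linB T i) 4

/-- The right side as an expression. -/
def rhsE (T U : Tet) (n K : ℕ) (ps : List (P3 × P3)) : Ex :=
  sumL (ps.map fun pr =>
    .mul (polyE (.mul (.c T.den) sA) (rhoA T) (tauA T) (kapA T) n K pr.1)
      (polyE (.mul (.c U.den) sB) (rhoB U) (tauB U) (kapB U) n K pr.2))

/-- The value of a right side. -/
noncomputable def pairsV (ps : List (P3 × P3)) (u v : Fin 4 → ℝ) : ℝ :=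
  (ps.map fun pr => p3V pr.1 (rhoU u) (tauU u) (kapU u) * p3V pr.2 (rhoU v) (tauU v) (kapU v)).sum

lemma val_monoE {R : Fin 8 → ℝ} {Ds Rh Ta Ka : Ex} {d a b c : ℝ} {n K : ℕ} (m : ℕ × ℕ × ℕ × ℤ)
    (hDs : Ds.val R = d) (hRh : Rh.val R = d ^ 2 * (4 * a)) (hTa : Ta.val R = d ^ 3 * (4 * b))
    (hKa : Ka.val R = d ^ 4 * (4 * c)) (h1 : 2 * m.1 + 3 * m.2.1 + 4 * m.2.2.1 ≤ n)
    (h2 : m.1 + m.2.1 + m.2.2.1 ≤ K) :
    (monoE Ds Rh Ta Ka n K m).val R =
      d ^ n * 4 ^ K * ((m.2.2.2 : ℝ) * a ^ m.1 * b ^ m.2.1 * c ^ m.2.2.1) := by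
  obtain ⟨i, j, k, z⟩ := m
  simp only at h1 h2 ⊢
  simp only [monoE, Ex.val, hDs, hRh, hTa, hKa]
  have e1 : d ^ n = d ^ (n - (2 * i + 3 * j + 4 * k)) * (d ^ 2) ^ i * (d ^ 3) ^ j * (d ^ 4) ^ k := by
    rw [← pow_mul, ← pow_mul, ← pow_mul, ← pow_add, ← pow_add, ← pow_add]
    congr 1
    omega
  have e2 : (4 : ℝ) ^ K = 4 ^ (K - (i + j + k)) * 4 ^ i * 4 ^ j * 4 ^ k := by
    rw [← pow_add, ← pow_add, ← pow_add]
    congr 1
    omega
  rw [e1, e2]
  push_cast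
  simp only [mul_pow]
  ring

lemma val_polyE {R : Fin 8 → ℝ} {Ds Rh Ta Ka : Ex} {d a b c : ℝ} {n K : ℕ} {P : P3}
    (hDs : Ds.val R = d) (hRh : Rh.val R = d ^ 2 * (4 * a)) (hTa : Ta.val R = d ^ 3 * (4 * b))
    (hKa : Ka.val R = d ^ 4 * (4 * c)) (hP : p3OK n K P = true) :
    (polyE Ds Rh Ta Ka n K P).val R = d ^ n * 4 ^ K * p3V P a b c := by
  simp only [polyE, val_sumL, p3V, List.map_map]
  simp only [p3OK, List.all_eq_true, Bool.and_eq_true, decide_eq_true_eq] at hP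
  induction P with
  | nil => simp
  | cons m P ih =>
    simp only [List.map_cons, List.sum_cons, Function.comp]
    rw [val_monoE m hDs hRh hTa hKa (hP m (by simp)).1 (hP m (by simp)).2]
    rw [ih (fun x hx => hP x (List.mem_cons_of_mem _ hx))]
    ring

/-! ### Points of tetrahedra -/

/-- A point of a tetrahedron. -/
def InTet (T : Tet) (u : Fin 4 → ℝ) : Prop :=
  ∃ r : Fin 4 → ℝ, (∀ j, 0 ≤ r j) ∧ ∑ j, r j = 1 ∧ ∀ i, (T.den : ℝ) * u i = ∑ j, (T.A j i : ℝ) * r j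

/-- The point of the variables. -/
noncomputable def joinR (r s : Fin 4 → ℝ) : Fin 8 → ℝ :=
  fun i => if h : i.val < 4 then r ⟨i.val, h⟩ else s ⟨i.val - 4, by omega⟩

lemma joinR_nonneg {r s : Fin 4 → ℝ} (hr : ∀ j, 0 ≤ r j) (hs : ∀ j, 0 ≤ s j) (i : Fin 8) :
    0 ≤ joinR r s i := by
  simp only [joinR]
  split_ifs
  · exact hr _
  · exact hs _

lemma val_rV (r s : Fin 4 → ℝ) (j : Fin 4) : (rV j).val (joinR r s) = r j := by
  have : j.val < 4 := j.isLt
  simp [rV, Ex.val, joinR, this]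

lemma val_sV (r s : Fin 4 → ℝ) (j : Fin 4) : (sV j).val (joinR r s) = s j := by
  simp [sV, Ex.val, joinR]

/-- The domain of a message. -/
def DomU (u : Fin 4 → ℝ) : Prop := (∀ i, -1 ≤ u i) ∧ ∑ i, u i = 0

/-- The point of two tetrahedra as variables. -/
lemma rep_of {T U : Tet} {u v : Fin 4 → ℝ} {r s : Fin 4 → ℝ} (hr1 : ∑ j, r j = 1) (hs1 : ∑ j, s j = 1)
    (hr2 : ∀ i, (T.den : ℝ) * u i = ∑ j, (T.A j i : ℝ) * r j)
    (hs2 : ∀ i, (U.den : ℝ) * v i = ∑ j, (U.A j i : ℝ) * s j) (du : DomU u) (dv : DomU v) :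
    Rep (joinR r s) T U u v where
  hA := by simp only [sA, val_sum4, val_rV, hr1]
  hB := by simp only [sB, val_sum4, val_sV, hs1]
  hU := fun i => by
    simp only [linA, val_sum4, Ex.val, val_rV, hr2]
  hV := fun i => by
    simp only [linB, val_sum4, Ex.val, val_sV, hs2]
  su := du.2
  sv := dv.2

section moments

variable {R : Fin 8 → ℝ} {T U : Tet} {u v : Fin 4 → ℝ}

lemma val_rhoA (h : Rep R T U u v) : (rhoA T).val R = (T.den : ℝ) ^ 2 * (4 * rhoU u) := by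
  simp only [rhoA, val_sum4, Ex.val, h.hU, rhoU, mul_pow]
  rw [← Finset.mul_sum]
  ring

lemma val_tauA (h : Rep R T U u v) : (tauA T).val R = (T.den : ℝ) ^ 3 * (4 * tauU u) := by
  simp only [tauA, val_sum4, Ex.val, h.hU, tauU, mul_pow]
  rw [← Finset.mul_sum]
  ring

lemma val_kapA (h : Rep R T U u v) : (kapA T).val R = (T.den : ℝ) ^ 4 * (4 * kapU u) := by
  simp only [kapA, val_sum4, Ex.val, h.hU, kapU, mul_pow]
  rw [← Finset.mul_sum]
  ring

lemma val_rhoB (h : Rep R T U u v) : (rhoB U).val R = (U.den : ℝ) ^ 2 * (4 * rhoU v) := by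
  simp only [rhoB, val_sum4, Ex.val, h.hV, rhoU, mul_pow]
  rw [← Finset.mul_sum]
  ring

lemma val_tauB (h : Rep R T U u v) : (tauB U).val R = (U.den : ℝ) ^ 3 * (4 * tauU v) := by
  simp only [tauB, val_sum4, Ex.val, h.hV, tauU, mul_pow]
  rw [← Finset.mul_sum]
  ring

lemma val_kapB (h : Rep R T U u v) : (kapB U).val R = (U.den : ℝ) ^ 4 * (4 * kapU v) := by
  simp only [kapB, val_sum4, Ex.val, h.hV, kapU, mul_pow]
  rw [← Finset.mul_sum]
  ring

lemma val_rhsE (h : Rep R T U u v) {n K : ℕ} {ps : List (P3 × P3)}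
    (hps : ps.all (fun pr => p3OK n K pr.1 && p3OK n K pr.2) = true) :
    (rhsE T U n K ps).val R = (T.den : ℝ) ^ n * (U.den : ℝ) ^ n * 4 ^ (2 * K) * pairsV ps u v := by
  have hDa : (Ex.mul (.c T.den) sA).val R = (T.den : ℝ) := by simp [Ex.val, h.hA]
  have hDb : (Ex.mul (.c U.den) sB).val R = (U.den : ℝ) := by simp [Ex.val, h.hB]
  simp only [rhsE, val_sumL, pairsV, List.map_map]
  simp only [List.all_eq_true, Bool.and_eq_true] at hps
  induction ps with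
  | nil => simp
  | cons pr ps ih =>
    simp only [List.map_cons, List.sum_cons, Function.comp, Ex.val]
    rw [val_polyE hDa (val_rhoA h) (val_tauA h) (val_kapA h) (hps pr (by simp)).1,
      val_polyE hDb (val_rhoB h) (val_tauB h) (val_kapB h) (hps pr (by simp)).2]
    have := ih (fun x hx => hps x (List.mem_cons_of_mem _ hx))
    rw [this]
    rw [two_mul, pow_add]
    ring

end moments

/-! ### The merged message -/

/-- The merged message. -/
noncomputable def mergeU (u v : Fin 4 → ℝ) (i : Fin 4) : ℝ := wF u v i / nF u v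

/-- The invariant. -/
noncomputable def chiU (g : Glob) (u : Fin 4 → ℝ) : ℝ :=
  tauU u + (g.C3 / g.C0 : ℝ) * rhoU u ^ 2 + (g.C4 / g.C0 : ℝ) * kapU u + (g.C5 / g.C0 : ℝ) * b5U u

lemma cast_dD_tu {T U : Tet} : (dD T U : ℝ) = 4 * T.den * U.den := by
  simp [dD]

section merged

variable (u v : Fin 4 → ℝ)

lemma xF_eq (i : Fin 4) : xF u v i = wF u v i + nF u v := by simp [wF]

lemma merge_rho (hN : nF u v ≠ 0) : nF u v * rhoU (mergeU u v) = r2F u v / nF u v := by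
  simp only [rhoU, mergeU, r2F, Fin.sum_univ_four]
  field_simp

lemma merge_rho2 (hN : nF u v ≠ 0) :
    nF u v * rhoU (mergeU u v) ^ 2 = r2F u v ^ 2 / nF u v ^ 3 := by
  simp only [rhoU, mergeU, r2F, Fin.sum_univ_four]
  field_simp

lemma merge_kap (hN : nF u v ≠ 0) : nF u v * kapU (mergeU u v) = m4F u v / nF u v ^ 3 := by
  simp only [kapU, mergeU, m4F, Fin.sum_univ_four]
  field_simp

lemma merge_b5 (hN : nF u v ≠ 0) : nF u v * b5U (mergeU u v) = m4xF u v / nF u v ^ 4 := by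
  simp only [b5U, mergeU, m4xF, Fin.sum_univ_four, xF_eq]
  field_simp
  ring

lemma merge_tau (hN : nF u v ≠ 0) :
    nF u v * tauU (mergeU u v) = m2xF u v / nF u v ^ 2 - r2F u v / nF u v := by
  simp only [tauU, mergeU, m2xF, r2F, Fin.sum_univ_four, xF_eq]
  field_simp
  ring

lemma r2F_nonneg : 0 ≤ r2F u v := by
  simp only [r2F]
  positivity

lemma m4F_nonneg : 0 ≤ m4F u v := by
  simp only [m4F]
  positivity

lemma xF_nonneg (hu : ∀ i, -1 ≤ u i) (hv : ∀ i, -1 ≤ v i) (i : Fin 4) : 0 ≤ xF u v i := by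
  have h1 := hu i
  have h2 := hv i
  exact mul_nonneg (by linarith) (by linarith)

lemma m2xF_nonneg (hu : ∀ i, -1 ≤ u i) (hv : ∀ i, -1 ≤ v i) : 0 ≤ m2xF u v := by
  simp only [m2xF]
  have : ∀ i, 0 ≤ wF u v i ^ 2 * xF u v i := fun i =>
    mul_nonneg (by positivity) (xF_nonneg u v hu hv i)
  have h2 := Finset.sum_nonneg (fun i (_ : i ∈ Finset.univ) => this i)
  positivity

lemma m4xF_nonneg (hu : ∀ i, -1 ≤ u i) (hv : ∀ i, -1 ≤ v i) : 0 ≤ m4xF u v := by
  simp only [m4xF]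
  have : ∀ i, 0 ≤ wF u v i ^ 4 * xF u v i := fun i =>
    mul_nonneg (by positivity) (xF_nonneg u v hu hv i)
  have h2 := Finset.sum_nonneg (fun i (_ : i ∈ Finset.univ) => this i)
  positivity

end merged

/-! ### The checks -/

/-- The expression of the first inequality. -/
def eM (g : Glob) (l : Leaf) : Ex :=
  .sub (.mul (.c g.kM1) (rhsE l.ta l.tb g.n g.K g.pM))
    (.mul (.c g.kM2) (sumR 24 fun k =>
      termE l.ta l.tb (permOf k) (w2E l.ta l.tb (permOf k)) 2 g.n (entE g l k).qM))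

/-- The term of the second inequality. -/
def intE (g : Glob) (T U : Tet) (p : Fin 4 → Fin 4) (e : QEnt) : Ex :=
  .add (.add (.add (.mul (.c (16 * g.C0)) (termE T U p (w2xE T U p) 3 g.n e.q2))
    (.mul (.c (-(4 * g.C0))) (termE T U p (w2E T U p) 2 g.n e.q1)))
    (termE T U p (.add (.mul (.c g.C3) (.pow (w2E T U p) 2)) (.mul (.c (4 * g.C4)) (w4E T U p))) 4 g.n e.q3))
    (.mul (.c (16 * g.C5)) (termE T U p (w4xE T U p) 5 g.n e.q4))

/-- The expression of the second inequality. -/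
def eI (g : Glob) (l : Leaf) : Ex :=
  .sub (.mul (.c g.kI2) (sumR 24 fun k => intE g l.ta l.tb (permOf k) (entE g l k)))
    (.mul (.c g.kI1) (rhsE l.ta l.tb g.n g.K g.pI))

/-- The check of the first inequality. -/
def chkM (g : Glob) (l : Leaf) : Bool :=
  check (Nat.log2 (eM g l).maj + 2) g.n g.n (eM g l)

/-- The check of the second inequality. -/
def chkI (g : Glob) (l : Leaf) : Bool :=
  check (Nat.log2 (eI g l).maj + 2) g.n g.n (eI g l)

/-- The lower range expression. -/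
def rngLo (g : Glob) (l : Leaf) (k : ℕ) : Ex :=
  .sub (.mul (.c g.L) (tmE l.ta l.tb (permOf k))) (.mul (.c (entE g l k).lo) (dmE l.ta l.tb))

/-- The upper range expression. -/
def rngHi (g : Glob) (l : Leaf) (k : ℕ) : Ex :=
  .sub (.mul (.c (lastZ (entE g l k).nx (entE g l k).ms)) (dmE l.ta l.tb))
    (.mul (.c g.L) (tmE l.ta l.tb (permOf k)))

/-- The range checks and the degree checks of a leaf. -/
def chkR (g : Glob) (l : Leaf) : Bool :=
  decide (0 < l.ta.den) && decide (0 < l.tb.den) &&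
  (List.range 24).all fun k =>
    decide (l.ents.getD k 0 < g.tab.length) &&
    check (Nat.log2 (rngLo g l k).maj + 2) 1 1 (rngLo g l k) &&
    check (Nat.log2 (rngHi g l k).maj + 2) 1 1 (rngHi g l k) &&
    decide (2 + ((entE g l k).qM.length - 1) ≤ g.n) &&
    decide (2 + ((entE g l k).q1.length - 1) ≤ g.n) &&
    decide (3 + ((entE g l k).q2.length - 1) ≤ g.n) &&
    decide (4 + ((entE g l k).q3.length - 1) ≤ g.n) &&
    decide (5 + ((entE g l k).q4.length - 1) ≤ g.n)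

/-! ### Facts from the checks -/

/-- The facts of the shared data. -/
structure GFacts (g : Glob) : Prop where
  hL : 0 < g.L
  hQD : 0 < g.QD
  hC0 : 0 < g.C0
  hC3 : g.C3 ≤ 0
  hC4 : g.C4 ≤ 0
  hC5 : 0 ≤ g.C5
  hCM : 0 < g.CM
  hCI : 0 < g.CI
  hk1 : 0 < g.kM1
  hk2 : 0 < g.kM2
  hk3 : 0 < g.kI1
  hk4 : 0 < g.kI2
  eM : g.kM1 * 4 ^ (2 * g.K) * g.CM = g.kM2 * 4 ^ (g.n + 1) * 24 * g.QD
  eI : g.kI1 * 4 ^ (2 * g.K) * g.CI = g.kI2 * 16 * 4 ^ g.n * 24 * g.C0 * g.QD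
  pM : g.pM.all (fun pr => p3OK g.n g.K pr.1 && p3OK g.n g.K pr.2) = true
  pI : g.pI.all (fun pr => p3OK g.n g.K pr.1 && p3OK g.n g.K pr.2) = true

lemma gfacts {g : Glob} (h : g.ok = true) : GFacts g := by
  simp only [Glob.ok, Bool.and_eq_true, decide_eq_true_eq] at h
  obtain ⟨⟨⟨⟨⟨⟨⟨⟨⟨⟨⟨⟨⟨⟨⟨h1, h2⟩, h3⟩, h4⟩, h5⟩, h6⟩, h7⟩, h8⟩, h9⟩, h10⟩, h11⟩, h12⟩, h13⟩, h14⟩, h15⟩, h16⟩ := h
  exact ⟨h1, h2, h3, h4, h5, h6, h7, h8, h9, h10, h11, h12, h13, h14,
    by simpa [List.all_eq_true, Bool.and_eq_true] using h15,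
    by simpa [List.all_eq_true, Bool.and_eq_true] using h16⟩

/-- The facts of one index of a leaf. -/
structure KFacts (g : Glob) (l : Leaf) (k : ℕ) : Prop where
  hi : l.ents.getD k 0 < g.tab.length
  lo : check (Nat.log2 (rngLo g l k).maj + 2) 1 1 (rngLo g l k) = true
  up : check (Nat.log2 (rngHi g l k).maj + 2) 1 1 (rngHi g l k) = true
  dM : 2 + ((entE g l k).qM.length - 1) ≤ g.n
  d1 : 2 + ((entE g l k).q1.length - 1) ≤ g.n
  d2 : 3 + ((entE g l k).q2.length - 1) ≤ g.n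
  d3 : 4 + ((entE g l k).q3.length - 1) ≤ g.n
  d4 : 5 + ((entE g l k).q4.length - 1) ≤ g.n

lemma kfacts {g : Glob} {l : Leaf} (h : chkR g l = true) {k : ℕ} (hk : k ∈ Finset.range 24) :
    KFacts g l k := by
  simp only [chkR, Bool.and_eq_true, decide_eq_true_eq, List.all_eq_true, List.mem_range] at h
  obtain ⟨_, h3⟩ := h
  obtain ⟨⟨⟨⟨⟨⟨⟨h1, h2⟩, h4⟩, h5⟩, h6⟩, h7⟩, h8⟩, h9⟩ := h3 k (Finset.mem_range.1 hk)
  exact ⟨h1, h2, h4, h5, h6, h7, h8, h9⟩

lemma dens {g : Glob} {l : Leaf} (h : chkR g l = true) : 0 < l.ta.den ∧ 0 < l.tb.den := by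
  simp only [chkR, Bool.and_eq_true, decide_eq_true_eq] at h
  exact h.1

lemma ent_ok {g : Glob} {l : Leaf} (ht : g.tabOK = true) {k : ℕ} (hi : l.ents.getD k 0 < g.tab.length) :
    (entE g l k).ok g.L g.QD = true := by
  simp only [Glob.tabOK, List.all_eq_true] at ht
  have : entE g l k = g.tab[l.ents.getD k 0] := by
    unfold entE
    rw [List.getD_eq_getElem _ _ hi]
  rw [this]
  exact ht _ (List.getElem_mem hi)

/-- What the checks give at one index of a leaf. -/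
structure TermFacts (g : Glob) (e : QEnt) (u v : Fin 4 → ℝ) : Prop where
  hN : 0 < nF u v
  bM : 1 / nF u v ≤ qVal e.qM (nF u v - 1) / g.QD
  b1 : 1 / nF u v ≤ qVal e.q1 (nF u v - 1) / g.QD
  b2 : qVal e.q2 (nF u v - 1) / g.QD ≤ 1 / nF u v ^ 2
  b3 : 1 / nF u v ^ 3 ≤ qVal e.q3 (nF u v - 1) / g.QD
  b4 : qVal e.q4 (nF u v - 1) / g.QD ≤ 1 / nF u v ^ 4

lemma dD_pos {T U : Tet} (h1 : 0 < T.den) (h2 : 0 < U.den) : (0 : ℝ) < (dD T U : ℝ) := by
  have : 0 < dD T U := by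
    unfold dD
    positivity
  exact_mod_cast this

lemma term_facts {g : Glob} {l : Leaf} {R : Fin 8 → ℝ} {u v : Fin 4 → ℝ} (gf : GFacts g)
    (ht : g.tabOK = true) (hdens : 0 < l.ta.den ∧ 0 < l.tb.den) (hR : ∀ i, 0 ≤ R i)
    (h : Rep R l.ta l.tb u v) {k : ℕ} (hk : k ∈ Finset.range 24) (kf : KFacts g l k) :
    TermFacts g (entE g l k) u (v ∘ permOf k) := by
  have hp := permOf_bij k hk
  have hD := dD_pos hdens.1 hdens.2
  have hL' : (0 : ℝ) < g.L := by exact_mod_cast gf.hL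
  set t := nF u (v ∘ permOf k) - 1 with ht'
  have h1 := check_val kf.lo R hR
  have h2 := check_val kf.up R hR
  simp only [rngLo, rngHi, Ex.val, val_tmE h _ hp, val_dmE h, ← ht'] at h1 h2
  have hlo : ((entE g l k).lo : ℝ) ≤ g.L * t := by
    have : 0 ≤ (dD l.ta l.tb : ℝ) * ((g.L : ℝ) * t - (entE g l k).lo) := by
      have e : (dD l.ta l.tb : ℝ) * ((g.L : ℝ) * t - (entE g l k).lo) =
        (g.L : ℝ) * ((dD l.ta l.tb : ℝ) * t) - ((entE g l k).lo : ℝ) * (dD l.ta l.tb : ℝ) := by ring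
      rw [e]
      exact h1
    have := nonneg_of_mul_nonneg_right this hD
    linarith
  have hhi : (g.L : ℝ) * t ≤ (lastZ (entE g l k).nx (entE g l k).ms : ℝ) := by
    have : 0 ≤ (dD l.ta l.tb : ℝ) * ((lastZ (entE g l k).nx (entE g l k).ms : ℝ) - (g.L : ℝ) * t) := by
      have e : (dD l.ta l.tb : ℝ) * ((lastZ (entE g l k).nx (entE g l k).ms : ℝ) - (g.L : ℝ) * t) =
        (lastZ (entE g l k).nx (entE g l k).ms : ℝ) * (dD l.ta l.tb : ℝ) -
          (g.L : ℝ) * ((dD l.ta l.tb : ℝ) * t) := by ring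
      rw [e]
      exact h2
    have := nonneg_of_mul_nonneg_right this hD
    linarith
  have hok := ent_ok (l := l) ht kf.hi
  simp only [QEnt.ok, Bool.and_eq_true, decide_eq_true_eq] at hok
  obtain ⟨⟨⟨⟨⟨h0, hM⟩, h1'⟩, h2'⟩, h3'⟩, h4'⟩ := hok
  have hN : 0 < 1 + t := by
    have h5 : (-(g.L : ℝ)) < (entE g l k).lo := by exact_mod_cast h0
    have h6 : (g.L : ℝ) * (1 + t) > 0 := by nlinarith
    exact (mul_pos_iff_of_pos_left hL').1 h6
  have e1 : 1 + t = nF u (v ∘ permOf k) := by rw [ht']; ring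
  have bM := q_upper gf.hL gf.hQD hM hlo hhi hN
  have b1 := q_upper gf.hL gf.hQD h1' hlo hhi hN
  have b2 := q_lower gf.hL gf.hQD h2' hlo hhi hN
  have b3 := q_upper gf.hL gf.hQD h3' hlo hhi hN
  have b4 := q_lower gf.hL gf.hQD h4' hlo hhi hN
  rw [e1] at bM b1 b2 b3 b4 hN
  rw [pow_one] at bM b1
  exact ⟨hN, bM, b1, b2, b3, b4⟩

/-- The average of the first function over the permutations. -/
noncomputable def kMF (u v : Fin 4 → ℝ) : ℝ :=
  (∑ k ∈ Finset.range 24, nF u (v ∘ permOf k) * rhoU (mergeU u (v ∘ permOf k))) / 24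

/-- The average of the second function over the permutations. -/
noncomputable def kIF (g : Glob) (u v : Fin 4 → ℝ) : ℝ :=
  (∑ k ∈ Finset.range 24, nF u (v ∘ permOf k) * chiU g (mergeU u (v ∘ permOf k))) / 24

/-- The first inequality on a leaf. -/
theorem leaf_M {g : Glob} {l : Leaf} (hg : g.ok = true) (ht : g.tabOK = true) (hr : chkR g l = true)
    (hm : chkM g l = true) {u v : Fin 4 → ℝ} (hu : InTet l.ta u) (hv : InTet l.tb v) (du : DomU u)
    (dv : DomU v) : kMF u v ≤ pairsV g.pM u v / g.CM := by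
  obtain ⟨r, r0, r1, r2⟩ := hu
  obtain ⟨s, s0, s1, s2⟩ := hv
  have gf := gfacts hg
  have hd := dens hr
  set R := joinR r s with hRdef
  have hR : ∀ i, 0 ≤ R i := joinR_nonneg r0 s0
  have h : Rep R l.ta l.tb u v := rep_of r1 s1 r2 s2 du dv
  have hD := dD_pos hd.1 hd.2
  have hdt : (0 : ℝ) < l.ta.den := by exact_mod_cast hd.1
  have hdu : (0 : ℝ) < l.tb.den := by exact_mod_cast hd.2
  have hQ : (0 : ℝ) < g.QD := by exact_mod_cast gf.hQD
  have hCM : (0 : ℝ) < g.CM := by exact_mod_cast gf.hCM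
  -- the sum of bounds
  set S := ∑ k ∈ Finset.range 24, r2F u (v ∘ permOf k) *
    qVal (entE g l k).qM (nF u (v ∘ permOf k) - 1) with hS
  have hK : kMF u v ≤ S / (24 * g.QD) := by
    simp only [kMF]
    have : ∑ k ∈ Finset.range 24, nF u (v ∘ permOf k) * rhoU (mergeU u (v ∘ permOf k)) ≤ S / g.QD := by
      rw [hS, Finset.sum_div]
      apply Finset.sum_le_sum
      intro k hk
      have tf := term_facts gf ht hd hR h hk (kfacts hr hk)
      rw [merge_rho _ _ tf.hN.ne', mul_div_assoc]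
      have := mul_le_mul_of_nonneg_left tf.bM (r2F_nonneg u (v ∘ permOf k))
      rw [mul_one_div] at this
      exact this
    calc _ ≤ (S / g.QD) / 24 := by gcongr
      _ = S / (24 * g.QD) := by field_simp
  -- the check
  have hc := check_val hm R hR
  have hterm : ∀ k ∈ Finset.range 24,
      (termE l.ta l.tb (permOf k) (w2E l.ta l.tb (permOf k)) 2 g.n (entE g l k).qM).val R =
        4 * (dD l.ta l.tb : ℝ) ^ g.n * (r2F u (v ∘ permOf k) *
          qVal (entE g l k).qM (nF u (v ∘ permOf k) - 1)) := by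
    intro k hk
    have hp := permOf_bij k hk
    have kf := kfacts hr hk
    rw [val_termE h (permOf k) hp (A := 4 * r2F u (v ∘ permOf k)) (by rw [val_w2E h _ hp]; ring) kf.dM]
    ring
  have hval : (eM g l).val R = (g.kM1 : ℝ) * ((l.ta.den : ℝ) ^ g.n * (l.tb.den : ℝ) ^ g.n * 4 ^ (2 * g.K) *
      pairsV g.pM u v) - (g.kM2 : ℝ) * (4 * (dD l.ta l.tb : ℝ) ^ g.n * S) := by
    simp only [eM, Ex.val, val_sumR]
    rw [val_rhsE h gf.pM, Finset.sum_congr rfl hterm, ← Finset.mul_sum]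
  rw [hval] at hc
  have hDn : (dD l.ta l.tb : ℝ) ^ g.n = 4 ^ g.n * ((l.ta.den : ℝ) ^ g.n * (l.tb.den : ℝ) ^ g.n) := by
    rw [cast_dD_tu, mul_assoc, mul_pow, mul_pow]
  rw [hDn] at hc
  have hpos : (0 : ℝ) < (l.ta.den : ℝ) ^ g.n * (l.tb.den : ℝ) ^ g.n := by positivity
  have hc2 : 0 ≤ ((l.ta.den : ℝ) ^ g.n * (l.tb.den : ℝ) ^ g.n) *
      ((g.kM1 : ℝ) * 4 ^ (2 * g.K) * pairsV g.pM u v - (g.kM2 : ℝ) * 4 ^ (g.n + 1) * S) := by
    have e : ((l.ta.den : ℝ) ^ g.n * (l.tb.den : ℝ) ^ g.n) *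
      ((g.kM1 : ℝ) * 4 ^ (2 * g.K) * pairsV g.pM u v - (g.kM2 : ℝ) * 4 ^ (g.n + 1) * S) =
      (g.kM1 : ℝ) * ((l.ta.den : ℝ) ^ g.n * (l.tb.den : ℝ) ^ g.n * 4 ^ (2 * g.K) *
      pairsV g.pM u v) - (g.kM2 : ℝ) * (4 * (4 ^ g.n * ((l.ta.den : ℝ) ^ g.n * (l.tb.den : ℝ) ^ g.n)) * S) := by
      rw [pow_succ]
      ring
    rw [e]
    exact hc
  have hc3 := nonneg_of_mul_nonneg_right hc2 hpos
  have hE : (g.kM1 : ℝ) * 4 ^ (2 * g.K) * g.CM = (g.kM2 : ℝ) * 4 ^ (g.n + 1) * 24 * g.QD := by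
    exact_mod_cast gf.eM
  have hk2 : (0 : ℝ) < g.kM2 := by exact_mod_cast gf.hk2
  refine hK.trans ?_
  rw [div_le_div_iff₀ (by positivity) hCM]
  have hfour : (0 : ℝ) < (g.kM2 : ℝ) * 4 ^ (g.n + 1) := by positivity
  apply le_of_mul_le_mul_left _ hfour
  have h5 : (g.kM2 : ℝ) * 4 ^ (g.n + 1) * S ≤ (g.kM1 : ℝ) * 4 ^ (2 * g.K) * pairsV g.pM u v := by linarith
  calc (g.kM2 : ℝ) * 4 ^ (g.n + 1) * (S * g.CM) = ((g.kM2 : ℝ) * 4 ^ (g.n + 1) * S) * g.CM := by ring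
    _ ≤ ((g.kM1 : ℝ) * 4 ^ (2 * g.K) * pairsV g.pM u v) * g.CM :=
        mul_le_mul_of_nonneg_right h5 hCM.le
    _ = ((g.kM1 : ℝ) * 4 ^ (2 * g.K) * g.CM) * pairsV g.pM u v := by ring
    _ = (g.kM2 : ℝ) * 4 ^ (g.n + 1) * (pairsV g.pM u v * (24 * g.QD)) := by rw [hE]; ring

/-- The integer form of the lower bound of a term of the second inequality. -/
noncomputable def brF (g : Glob) (e : QEnt) (u v : Fin 4 → ℝ) : ℝ :=
  (g.C0 : ℝ) * m2xF u v * qVal e.q2 (nF u v - 1) - (g.C0 : ℝ) * r2F u v * qVal e.q1 (nF u v - 1) +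
    (g.C3 : ℝ) * r2F u v ^ 2 * qVal e.q3 (nF u v - 1) + (g.C4 : ℝ) * m4F u v * qVal e.q3 (nF u v - 1) +
    (g.C5 : ℝ) * m4xF u v * qVal e.q4 (nF u v - 1)

lemma term_I {g : Glob} {e : QEnt} {u v : Fin 4 → ℝ} (gf : GFacts g) (tf : TermFacts g e u v)
    (hu : ∀ i, -1 ≤ u i) (hv : ∀ i, -1 ≤ v i) :
    brF g e u v / ((g.C0 : ℝ) * g.QD) ≤ nF u v * chiU g (mergeU u v) := by
  have hN := tf.hN
  have hC0 : (0 : ℝ) < g.C0 := by exact_mod_cast gf.hC0
  have hQ : (0 : ℝ) < g.QD := by exact_mod_cast gf.hQD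
  have hC3 : (g.C3 : ℝ) / g.C0 ≤ 0 := div_nonpos_of_nonpos_of_nonneg (by exact_mod_cast gf.hC3) hC0.le
  have hC4 : (g.C4 : ℝ) / g.C0 ≤ 0 := div_nonpos_of_nonpos_of_nonneg (by exact_mod_cast gf.hC4) hC0.le
  have hC5 : 0 ≤ (g.C5 : ℝ) / g.C0 := div_nonneg (by exact_mod_cast gf.hC5) hC0.le
  have e1 : nF u v * chiU g (mergeU u v) =
      (m2xF u v * (1 / nF u v ^ 2) - r2F u v * (1 / nF u v)) +
      ((g.C3 : ℝ) / g.C0) * (r2F u v ^ 2 * (1 / nF u v ^ 3)) +
      ((g.C4 : ℝ) / g.C0) * (m4F u v * (1 / nF u v ^ 3)) +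
      ((g.C5 : ℝ) / g.C0) * (m4xF u v * (1 / nF u v ^ 4)) := by
    have h1 := merge_tau u v hN.ne'
    have h2 := merge_rho2 u v hN.ne'
    have h3 := merge_kap u v hN.ne'
    have h4 := merge_b5 u v hN.ne'
    have : nF u v * chiU g (mergeU u v) = nF u v * tauU (mergeU u v) +
        ((g.C3 : ℝ) / g.C0) * (nF u v * rhoU (mergeU u v) ^ 2) +
        ((g.C4 : ℝ) / g.C0) * (nF u v * kapU (mergeU u v)) +
        ((g.C5 : ℝ) / g.C0) * (nF u v * b5U (mergeU u v)) := by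
      simp only [chiU]
      ring
    rw [this, h1, h2, h3, h4]
    simp only [mul_one_div]
  have e2 : brF g e u v / ((g.C0 : ℝ) * g.QD) =
      (m2xF u v * (qVal e.q2 (nF u v - 1) / g.QD) - r2F u v * (qVal e.q1 (nF u v - 1) / g.QD)) +
      ((g.C3 : ℝ) / g.C0) * (r2F u v ^ 2 * (qVal e.q3 (nF u v - 1) / g.QD)) +
      ((g.C4 : ℝ) / g.C0) * (m4F u v * (qVal e.q3 (nF u v - 1) / g.QD)) +
      ((g.C5 : ℝ) / g.C0) * (m4xF u v * (qVal e.q4 (nF u v - 1) / g.QD)) := by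
    simp only [brF]
    field_simp
  rw [e1, e2]
  have b2 := mul_le_mul_of_nonneg_left tf.b2 (m2xF_nonneg u v hu hv)
  have b1 := mul_le_mul_of_nonneg_left tf.b1 (r2F_nonneg u v)
  have b3 := mul_le_mul_of_nonneg_left tf.b3 (pow_nonneg (r2F_nonneg u v) 2)
  have b4 := mul_le_mul_of_nonneg_left tf.b3 (m4F_nonneg u v)
  have b5 := mul_le_mul_of_nonneg_left tf.b4 (m4xF_nonneg u v hu hv)
  have c3 := mul_le_mul_of_nonpos_left b3 hC3
  have c4 := mul_le_mul_of_nonpos_left b4 hC4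
  have c5 := mul_le_mul_of_nonneg_left b5 hC5
  linarith

/-- The second inequality on a leaf. -/
theorem leaf_I {g : Glob} {l : Leaf} (hg : g.ok = true) (ht : g.tabOK = true) (hr : chkR g l = true)
    (hm : chkI g l = true) {u v : Fin 4 → ℝ} (hu : InTet l.ta u) (hv : InTet l.tb v) (du : DomU u)
    (dv : DomU v) : pairsV g.pI u v / g.CI ≤ kIF g u v := by
  obtain ⟨r, r0, r1, r2⟩ := hu
  obtain ⟨s, s0, s1, s2⟩ := hv
  have gf := gfacts hg
  have hd := dens hr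
  set R := joinR r s with hRdef
  have hR : ∀ i, 0 ≤ R i := joinR_nonneg r0 s0
  have h : Rep R l.ta l.tb u v := rep_of r1 s1 r2 s2 du dv
  have hdt : (0 : ℝ) < l.ta.den := by exact_mod_cast hd.1
  have hdu : (0 : ℝ) < l.tb.den := by exact_mod_cast hd.2
  have hQ : (0 : ℝ) < g.QD := by exact_mod_cast gf.hQD
  have hC0 : (0 : ℝ) < g.C0 := by exact_mod_cast gf.hC0
  have hCI : (0 : ℝ) < g.CI := by exact_mod_cast gf.hCI
  set B := ∑ k ∈ Finset.range 24, brF g (entE g l k) u (v ∘ permOf k) with hB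
  have hK : B / (24 * ((g.C0 : ℝ) * g.QD)) ≤ kIF g u v := by
    simp only [kIF]
    have : B / ((g.C0 : ℝ) * g.QD) ≤
        ∑ k ∈ Finset.range 24, nF u (v ∘ permOf k) * chiU g (mergeU u (v ∘ permOf k)) := by
      rw [hB, Finset.sum_div]
      apply Finset.sum_le_sum
      intro k hk
      have tf := term_facts gf ht hd hR h hk (kfacts hr hk)
      have hv' : ∀ i, -1 ≤ (v ∘ permOf k) i := fun i => dv.1 _
      exact term_I gf tf du.1 hv'
    calc B / (24 * ((g.C0 : ℝ) * g.QD)) = (B / ((g.C0 : ℝ) * g.QD)) / 24 := by field_simp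
      _ ≤ _ := by gcongr
  have hc := check_val hm R hR
  have hterm : ∀ k ∈ Finset.range 24, (intE g l.ta l.tb (permOf k) (entE g l k)).val R =
      16 * (dD l.ta l.tb : ℝ) ^ g.n * brF g (entE g l k) u (v ∘ permOf k) := by
    intro k hk
    have hp := permOf_bij k hk
    have kf := kfacts hr hk
    have t2 := val_termE h (permOf k) hp (num := w2xE l.ta l.tb (permOf k)) (k := 3) (n := g.n)
      (qs := (entE g l k).q2) (A := m2xF u (v ∘ permOf k)) (by rw [val_w2xE h _ hp]; ring) kf.d2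
    have t1 := val_termE h (permOf k) hp (num := w2E l.ta l.tb (permOf k)) (k := 2) (n := g.n)
      (qs := (entE g l k).q1) (A := 4 * r2F u (v ∘ permOf k)) (by rw [val_w2E h _ hp]; ring) kf.d1
    have t3 := val_termE h (permOf k) hp
      (num := .add (.mul (.c g.C3) (.pow (w2E l.ta l.tb (permOf k)) 2))
        (.mul (.c (4 * g.C4)) (w4E l.ta l.tb (permOf k)))) (k := 4) (n := g.n)
      (qs := (entE g l k).q3)
      (A := 16 * ((g.C3 : ℝ) * r2F u (v ∘ permOf k) ^ 2 + (g.C4 : ℝ) * m4F u (v ∘ permOf k)))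
      (by
        simp only [Ex.val]
        rw [val_w2E h _ hp, val_w4E h _ hp]
        push_cast
        ring) kf.d3
    have t5 := val_termE h (permOf k) hp (num := w4xE l.ta l.tb (permOf k)) (k := 5) (n := g.n)
      (qs := (entE g l k).q4) (A := m4xF u (v ∘ permOf k)) (by rw [val_w4xE h _ hp]; ring) kf.d4
    simp only [intE, Ex.val]
    rw [t2, t1, t3, t5]
    simp only [brF]
    push_cast
    ring
  have hval : (eI g l).val R = (g.kI2 : ℝ) * (16 * (dD l.ta l.tb : ℝ) ^ g.n * B) -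
      (g.kI1 : ℝ) * ((l.ta.den : ℝ) ^ g.n * (l.tb.den : ℝ) ^ g.n * 4 ^ (2 * g.K) * pairsV g.pI u v) := by
    simp only [eI, Ex.val, val_sumR]
    rw [val_rhsE h gf.pI, Finset.sum_congr rfl hterm, ← Finset.mul_sum]
  rw [hval] at hc
  have hDn : (dD l.ta l.tb : ℝ) ^ g.n = 4 ^ g.n * ((l.ta.den : ℝ) ^ g.n * (l.tb.den : ℝ) ^ g.n) := by
    rw [cast_dD_tu, mul_assoc, mul_pow, mul_pow]
  rw [hDn] at hc
  have hpos : (0 : ℝ) < (l.ta.den : ℝ) ^ g.n * (l.tb.den : ℝ) ^ g.n := by positivity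
  have hc2 : 0 ≤ ((l.ta.den : ℝ) ^ g.n * (l.tb.den : ℝ) ^ g.n) *
      ((g.kI2 : ℝ) * 16 * 4 ^ g.n * B - (g.kI1 : ℝ) * 4 ^ (2 * g.K) * pairsV g.pI u v) := by
    have e : ((l.ta.den : ℝ) ^ g.n * (l.tb.den : ℝ) ^ g.n) *
      ((g.kI2 : ℝ) * 16 * 4 ^ g.n * B - (g.kI1 : ℝ) * 4 ^ (2 * g.K) * pairsV g.pI u v) =
      (g.kI2 : ℝ) * (16 * (4 ^ g.n * ((l.ta.den : ℝ) ^ g.n * (l.tb.den : ℝ) ^ g.n)) * B) -
      (g.kI1 : ℝ) * ((l.ta.den : ℝ) ^ g.n * (l.tb.den : ℝ) ^ g.n * 4 ^ (2 * g.K) * pairsV g.pI u v) := by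
      ring
    rw [e]
    exact hc
  have hc3 := nonneg_of_mul_nonneg_right hc2 hpos
  have hE : (g.kI1 : ℝ) * 4 ^ (2 * g.K) * g.CI = (g.kI2 : ℝ) * 16 * 4 ^ g.n * 24 * g.C0 * g.QD := by
    exact_mod_cast gf.eI
  have hk4 : (0 : ℝ) < g.kI2 := by exact_mod_cast gf.hk4
  refine le_trans ?_ hK
  rw [div_le_div_iff₀ hCI (by positivity)]
  have hfour : (0 : ℝ) < (g.kI2 : ℝ) * 16 * 4 ^ g.n := by positivity
  apply le_of_mul_le_mul_left _ hfour
  have h5 : (g.kI1 : ℝ) * 4 ^ (2 * g.K) * pairsV g.pI u v ≤ (g.kI2 : ℝ) * 16 * 4 ^ g.n * B := by linarith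
  calc (g.kI2 : ℝ) * 16 * 4 ^ g.n * (pairsV g.pI u v * (24 * ((g.C0 : ℝ) * g.QD)))
      = pairsV g.pI u v * ((g.kI2 : ℝ) * 16 * 4 ^ g.n * 24 * g.C0 * g.QD) := by ring
    _ = ((g.kI1 : ℝ) * 4 ^ (2 * g.K) * pairsV g.pI u v) * g.CI := by rw [← hE]; ring
    _ ≤ ((g.kI2 : ℝ) * 16 * 4 ^ g.n * B) * g.CI := mul_le_mul_of_nonneg_right h5 hCI.le
    _ = (g.kI2 : ℝ) * 16 * 4 ^ g.n * (B * g.CI) := by ring

end Vale.Agent.Lib.P154Q4
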